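import Vale.Agent.P372.StabF.Rel
import Vale.Agent.P372.StabF.Swap
import Vale.Agent.P372.BF.Blocks

open Matrix Kronecker
open scoped ComplexOrder MatrixOrder

set_option linter.unusedSectionVars false

namespace Vale.Agent.P372

namespace StabF

variable {A B E : Type} [Fintype A] [DecidableEq A] [Fintype B] [DecidableEq B]
  [Fintype E] [DecidableEq E]

/-- The operators `u` and `w` of Bob have a partner of Alice relative to the state. -/
def Partner (ρ : Matrix (A × B) (A × B) ℂ) (u w : Matrix B B ℂ) : Prop :=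
  ∃ u' : Matrix A A ℂ, Commute (u' ⊗ₖ w) ρ ∧ (∃ r : ℂ, BF.ctr ρ u = r • u') ∧
    ∃ r : ℂ, u.trace • (1 : Matrix A A ℂ) = r • u'

/-- Products of code projections on blocks of any length, positive operators on blocks of at most
`N` copies, and one positive operator on a block of at most `M` copies. -/
def CodeProd {n : ℕ} (P : Matrix A A ℂ → Matrix A A ℂ → Prop) (N M : ℕ)
    (X : Matrix (Fin n → A) (Fin n → A) ℂ) : Prop :=
  ∃ (m : ℕ) (π : Fin n → Fin (m + 1))
    (Q : ∀ i, Matrix ({j // π j = i} → A) ({j // π j = i} → A) ℂ),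
    Fintype.card {j // π j = 0} ≤ M ∧
      (∀ i, i ≠ 0 → Fintype.card {j // π j = i} ≤ N ∨ IsCode P (Q i)) ∧
      (∀ i, (Q i).PosSemidef) ∧ ∀ p q, X p q = ∏ i, Q i (fun j => p j) (fun j => q j)

/-- Such products up to the factor `c`. -/
def NearCodeProd {n : ℕ} (P : Matrix A A ℂ → Matrix A A ℂ → Prop) (N M : ℕ) (c : ℝ)
    (G : Matrix (Fin n → A) (Fin n → A) ℂ) : Prop :=
  ∃ X, CodeProd P N M X ∧ (G - X).PosSemidef ∧ ((c : ℂ) • X - G).PosSemidef

theorem ctr_comb (ρ : Matrix (A × B) (A × B) ℂ) (a : ℂ) (u : Matrix B B ℂ) :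
    BF.ctr (ρ - a • (1 : Matrix (A × B) (A × B) ℂ)) u =
      BF.ctr ρ u - a • (u.trace • (1 : Matrix A A ℂ)) := by
  have h : BF.ctr (1 : Matrix (A × B) (A × B) ℂ) u = u.trace • (1 : Matrix A A ℂ) := by
    ext x x'
    simp only [BF.ctr, Matrix.one_apply, Prod.mk.injEq, Matrix.smul_apply, smul_eq_mul,
      Matrix.trace, Matrix.diag]
    by_cases h : x = x'
    · subst h
      simp
    · simp [h]
  rw [← h]
  ext x x'
  simp only [BF.ctr, Matrix.sub_apply, Matrix.smul_apply, smul_eq_mul, sub_mul,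
    Finset.sum_sub_distrib, Finset.mul_sum, mul_assoc]

theorem ctr_one' (u : Matrix B B ℂ) :
    BF.ctr (1 : Matrix (A × B) (A × B) ℂ) u = u.trace • (1 : Matrix A A ℂ) := by
  have h := ctr_comb (0 : Matrix (A × B) (A × B) ℂ) (-1) u
  have h0 : BF.ctr (0 : Matrix (A × B) (A × B) ℂ) u = 0 := by
    ext x x'
    simp [BF.ctr]
  rw [h0] at h
  simpa using h

/-- Extensions of the copies relative to a code. -/
theorem code_ext {ι : Type} [Fintype ι] [DecidableEq ι] {ρ : Matrix (A × B) (A × B) ℂ} {lo : ℝ}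
    (hlo : 0 < lo) (h1 : (ρ - (lo : ℂ) • 1).PosSemidef)
    (h2 : (((2 * lo : ℝ) : ℂ) • 1 - ρ).PosSemidef) {P : Matrix B B ℂ → Matrix B B ℂ → Prop}
    (hP : ∀ u w, P u w → Partner ρ u w) {Pi : Matrix (ι → B) (ι → B) ℂ} (hPi : IsCode P Pi)
    (h0 : Pi.trace ≠ 0) : ∃ K, BF.IsExt (BF.cop ι ρ) Pi K := by
  obtain ⟨S, hS⟩ : ∃ S, S = ρ - (lo : ℂ) • 1 := ⟨_, rfl⟩
  have hSp : S.PosSemidef := by rw [hS]; exact h1
  have hS' : ((lo : ℂ) • 1 - S).PosSemidef := by
    have e : (lo : ℂ) • 1 - S = ((2 * lo : ℝ) : ℂ) • 1 - ρ := by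
      rw [hS]
      push_cast
      rw [two_mul, add_smul]
      abel
    rw [e]
    exact h2
  have hsite : ∀ u w, P u w → ∃ u', IsSite S u' u w := by
    intro u w hu
    obtain ⟨u', hc, ⟨r, hr⟩, r', hr'⟩ := hP u w hu
    refine ⟨u', ⟨⟨r', by rw [ctr_one', hr']⟩, ⟨r - lo * r', ?_⟩, ?_⟩⟩
    · rw [hS, ctr_comb, hr, hr', smul_smul, sub_smul]
    · rw [hS]
      exact hc.sub_right ((Commute.one_right _).smul_right _)
  have hcode := code_comm (α := lo) hsite hPi
  obtain ⟨Ω, hΩ, hΩ1, hΩ2⟩ := exists_ext hSp hlo.le hS' Pi hcode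
  have hsum : ∑ τ : ι → Bool, flag S lo τ = BF.cop ι ρ := by
    rw [sum_flag]
    have e : (lo : ℂ) • 1 + S = ρ := by
      rw [hS]
      abel
    rw [e]
    rfl
  have hft : ft Pi (BF.cop ι ρ) = pr (ι → A) Pi * BF.cop ι ρ * pr (ι → A) Pi := by
    rw [ft_eq]
    have := pr_conj (A := ι → A) hPi.1
    rw [pr] at this
    rw [this, pr]
  rw [hsum, hft] at hΩ1 hΩ2
  exact unsandwich (pow_pos hlo (Fintype.card ι)) (BF.cop_low ι hlo.le h1) hPi.1 hPi.2.1 h0 hΩ
    (by ext p q; exact hΩ1 p.1 p.2 q.1 q.2) (by ext p q; exact hΩ2 p.1 p.2 q.1 q.2)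

/-- Extensions relative to every filter that is almost a product of filters on blocks. -/
theorem ext_or_zero {n N M : ℕ} {c : ℝ} {ρ : Matrix (A × B) (A × B) ℂ} {lo hi : ℝ}
    {P : Matrix B B ℂ → Matrix B B ℂ → Prop} (hPP : ∀ u w, P u w → Partner ρ u w) (h12 : hi ≤ 2 * lo)
    (hlo : 0 < lo) (hlohi : lo ≤ hi) (hc : 0 < c) (h1 : (ρ - (lo : ℂ) • 1).PosSemidef)
    (h2 : ((hi : ℂ) • 1 - ρ).PosSemidef)
    (hN : hi ^ N ≤ 2 * lo ^ N) {G : Matrix (Fin n → B) (Fin n → B) ℂ} (hG0 : G.PosSemidef)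
    (hG : NearCodeProd P N M c G) :
    G = 0 ∨ ∃ L, BF.IsExtK (c * (hi / lo) ^ M) (BF.cop (Fin n) ρ) G L := by
  have hρ : ρ.PosSemidef := by
    have h4 : ρ = (ρ - (lo : ℂ) • 1) + (lo : ℂ) • (1 : Matrix _ _ ℂ) := by abel
    rw [h4]
    exact h1.add (PosSemidef.one.smul (by exact_mod_cast hlo.le))
  have hhi : 0 < hi := hlo.trans_le hlohi
  obtain ⟨X, ⟨m, π, Q, hc0, hcN, hQ, hP⟩, hGP, hPG⟩ := hG
  by_cases h0 : ∃ i, (Q i).trace = 0
  · left
    obtain ⟨i, hi⟩ := h0
    have hQi : Q i = 0 := (hQ i).trace_eq_zero_iff.mp hi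
    have hP0 : X = 0 := by
      ext p q
      rw [hP, Matrix.zero_apply]
      exact Finset.prod_eq_zero (Finset.mem_univ i) (by rw [hQi, Matrix.zero_apply])
    rw [hP0, smul_zero, zero_sub] at hPG
    have h3 := hPG.trace_nonneg
    have h4 := hG0.trace_nonneg
    rw [trace_neg] at h3
    exact hG0.trace_eq_zero_iff.mp (le_antisymm (neg_nonneg.mp h3) h4)
  · right
    push Not at h0
    -- the comparison operator
    obtain ⟨C, hC⟩ : ∃ C : ∀ i, Matrix (({j // π j = i} → A) × ({j // π j = i} → B))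
      (({j // π j = i} → A) × ({j // π j = i} → B)) ℂ, C = fun i => BF.cop {j // π j = i} ρ :=
      ⟨_, rfl⟩
    obtain ⟨s, hs⟩ : ∃ s, s = Fintype.card {j // π j = 0} := ⟨_, rfl⟩
    obtain ⟨O, hO⟩ : ∃ O : Matrix (({j // π j = 0} → A) × ({j // π j = 0} → B))
      (({j // π j = 0} → A) × ({j // π j = 0} → B)) ℂ, O = 1 := ⟨_, rfl⟩
    have hR : BF.cop (Fin n) ρ = BF.bprod π (Function.update C 0 (C 0)) := by
      rw [Function.update_eq_self, hC]
      exact BF.cop_eq_bprod π ρ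
    have hpos : ∀ i, (C i).PosSemidef := by
      intro i
      rw [hC]
      have h3 := BF.cop_low {j // π j = i} hlo.le h1
      have h4 := h3.add ((PosSemidef.one (n := ({j // π j = i} → A) ×
        ({j // π j = i} → B)) (R := ℂ)).smul (Complex.zero_le_real.mpr
          (pow_nonneg hlo.le (Fintype.card {j // π j = i}))))
      rwa [sub_add_cancel] at h4
    have hupd : ∀ W, W.PosSemidef → (BF.bprod π (Function.update C 0 W)).PosSemidef := by
      intro W hW
      refine BF.bprod_posSemidef π fun i => ?_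
      by_cases hi0 : i = 0
      · subst hi0
        rw [Function.update_self]
        exact hW
      · rw [Function.update_of_ne hi0]
        exact hpos i
    obtain ⟨S, hS⟩ : ∃ S, S = BF.bprod π (Function.update C 0 (((lo ^ s : ℝ) : ℂ) • O)) := ⟨_, rfl⟩
    have hRS : (BF.cop (Fin n) ρ - S).PosSemidef := by
      have h3 := BF.cop_low {j // π j = 0} hlo.le h1
      rw [← hs, ← hO] at h3
      have h4 := hupd ((1 : ℂ) • C 0 - (1 : ℂ) • (((lo ^ s : ℝ) : ℂ) • O)) (by
        rw [one_smul, one_smul, hC]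
        exact h3)
      rw [BF.bprod_update, one_smul, one_smul, ← hR, ← hS] at h4
      exact h4
    have hSR : ((((hi / lo) ^ M : ℝ) : ℂ) • S - BF.cop (Fin n) ρ).PosSemidef := by
      have h3 := BF.cop_high {j // π j = 0} hρ h2
      rw [← hs, ← hO] at h3
      have h5 : hi ^ s ≤ (hi / lo) ^ M * lo ^ s := by
        have h6 : 1 ≤ hi / lo := (one_le_div hlo).mpr hlohi
        calc hi ^ s = (hi / lo) ^ s * lo ^ s := by
              rw [div_pow, div_mul_cancel₀ _ (pow_pos hlo s).ne']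
          _ ≤ _ := mul_le_mul_of_nonneg_right
              (pow_le_pow_right₀ h6 (hs ▸ hc0)) (pow_nonneg hlo.le s)
      have h4 := hupd ((((hi / lo) ^ M : ℝ) : ℂ) • (((lo ^ s : ℝ) : ℂ) • O) - (1 : ℂ) • C 0) (by
        rw [one_smul, smul_smul, ← Complex.ofReal_mul]
        have h7 := h3.add ((PosSemidef.one (n := ({j // π j = 0} → A) ×
          ({j // π j = 0} → B)) (R := ℂ)).smul
          (Complex.zero_le_real.mpr (sub_nonneg.mpr h5)))
        rw [← hO, Complex.ofReal_sub, sub_smul] at h7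
        have h8 : ((hi ^ s : ℝ) : ℂ) • O - BF.cop {j // π j = 0} ρ +
            ((((hi / lo) ^ M * lo ^ s : ℝ) : ℂ) • O - ((hi ^ s : ℝ) : ℂ) • O) =
            (((hi / lo) ^ M * lo ^ s : ℝ) : ℂ) • O - C 0 := by
          rw [hC]
          abel
        rwa [h8] at h7)
      rw [BF.bprod_update, one_smul, ← hR, ← hS] at h4
      exact h4
    have hext : ∃ K, BF.IsExt S X K := by
      rw [hS]
      refine BF.ext_blocks π (fun i => ?_) hP
      by_cases hi0 : i = 0
      · subst hi0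
        rw [Function.update_self, hO]
        exact BF.ext_smul_one (pow_nonneg hlo.le s) (hQ 0) (h0 0)
      · rw [Function.update_of_ne hi0, hC]
        rcases hcN i hi0 with hcNi | hcode
        swap
        · refine code_ext hlo h1 ?_ hPP hcode (h0 i)
          have h8 : (((2 * lo : ℝ) : ℂ) • 1 - ρ) = ((hi : ℂ) • 1 - ρ) +
              (((2 * lo - hi : ℝ) : ℂ) • (1 : Matrix _ _ ℂ)) := by
            rw [Complex.ofReal_sub, sub_smul]
            abel
          rw [h8]
          exact h2.add (PosSemidef.one.smul (by exact_mod_cast sub_nonneg.mpr h12))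
        have hpow : hi ^ Fintype.card {j // π j = i} ≤ 2 * lo ^ Fintype.card {j // π j = i} := by
          obtain ⟨r, hr⟩ := Nat.exists_eq_add_of_le hcNi
          rw [hr, pow_add, pow_add] at hN
          have h3 : lo ^ r ≤ hi ^ r := pow_le_pow_left₀ hlo.le hlohi r
          have h4 : 0 < lo ^ r := pow_pos hlo r
          have h5 : 0 < hi ^ Fintype.card {j // π j = i} := pow_pos hhi _
          by_contra hcon
          push Not at hcon
          have h6 : 2 * (lo ^ Fintype.card {j // π j = i} * lo ^ r) <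
              hi ^ Fintype.card {j // π j = i} * hi ^ r := by
            calc 2 * (lo ^ Fintype.card {j // π j = i} * lo ^ r)
                = (2 * lo ^ Fintype.card {j // π j = i}) * lo ^ r := by ring
              _ < hi ^ Fintype.card {j // π j = i} * lo ^ r := mul_lt_mul_of_pos_right hcon h4
              _ ≤ _ := mul_le_mul_of_nonneg_left h3 h5.le
          linarith
        refine BF.exists_ext (BF.cop_low {j // π j = i} hlo.le h1) ?_ (hQ i) (h0 i)
        have h7 := BF.cop_high {j // π j = i} hρ h2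
        have h8 : (((2 * lo ^ Fintype.card {j // π j = i} : ℝ) : ℂ) • 1 -
            BF.cop {j // π j = i} ρ) = (((hi ^ Fintype.card {j // π j = i} : ℝ) : ℂ) • 1 -
            BF.cop {j // π j = i} ρ) + (((2 * lo ^ Fintype.card {j // π j = i} -
              hi ^ Fintype.card {j // π j = i} : ℝ) : ℂ) • (1 : Matrix _ _ ℂ)) := by
          rw [Complex.ofReal_sub, sub_smul]
          abel
        rw [h8]
        exact h7.add (PosSemidef.one.smul (by exact_mod_cast sub_nonneg.mpr hpow))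
    obtain ⟨K, hK⟩ := hext
    exact ⟨_, hK.extK (pow_nonneg (div_nonneg hhi.le hlo.le) M) hc hRS hSR hGP hPG⟩

/-- States close to the maximally mixed state: no key if one party only filters in blocks. -/
theorem near_filters {ρ : Matrix (A × B) (A × B) ℂ} {lo hi c : ℝ} {N M : ℕ}
    {PA : Matrix A A ℂ → Matrix A A ℂ → Prop} {PB : Matrix B B ℂ → Matrix B B ℂ → Prop}
    (hPA : ∀ u w, PA u w → Partner (ρ.submatrix (Prod.swap : B × A → A × B) Prod.swap) u w)
    (hPB : ∀ u w, PB u w → Partner ρ u w) (h12 : hi ≤ 2 * lo)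
    (htr : ρ.trace = 1) (hlo : 0 < lo) (h1 : (ρ - (lo : ℂ) • 1).PosSemidef)
    (h2 : ((hi : ℂ) • 1 - ρ).PosSemidef) (hN : hi ^ N ≤ 2 * lo ^ N) (hc : 0 < c)
    (Ψ : Matrix (A × B) E ℂ) (hΨ : Ψ * Ψᴴ = ρ) (n ℓ : ℕ) (T : Type)
    [Fintype T] (f : T → (Fin ℓ → Bool) → Matrix (Fin n → A) (Fin n → A) ℂ)
    (g : T → (Fin ℓ → Bool) → Matrix (Fin n → B) (Fin n → B) ℂ) (ε : ℝ)
    (hL : LOCC (Fin ℓ → Bool) (Fin n → A) (Fin n → B) T f g)
    (hprod : ∀ t, NearCodeProd PA N M c (∑ k, f t k) ∨ NearCodeProd PB N M c (∑ k, g t k))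
    (herr : KeyError f g (copies n Ψ) ε) :
    1 - ε ≤ c * (hi / lo) ^ M * ((2 ^ ℓ)⁻¹ + ε) := by
  have hne : Nonempty (A × B) := by
    by_contra hcon
    rw [not_nonempty_iff] at hcon
    rw [Matrix.trace, Finset.univ_eq_empty, Finset.sum_empty] at htr
    exact zero_ne_one htr
  have hlohi : lo ≤ hi := by
    obtain ⟨p⟩ := hne
    have h3 := (h1.add h2).diag_nonneg (i := p)
    have h4 : ((ρ - (lo : ℂ) • 1) + ((hi : ℂ) • 1 - ρ)) p p = ((hi - lo : ℝ) : ℂ) := by
      simp only [Matrix.add_apply, Matrix.sub_apply, Matrix.smul_apply, Matrix.one_apply_eq,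
        smul_eq_mul]
      push_cast
      ring
    rw [h4, Complex.zero_le_real] at h3
    linarith
  have hW : copies n Ψ * (copies n Ψ)ᴴ = BF.cop (Fin n) ρ := by
    rw [copies_mul, hΨ]
    rfl
  have hlown := BF.cop_low (Fin n) hlo.le h1
  have hunit : ∃ W', (copies n Ψ * (copies n Ψ)ᴴ) * W' = 1 := by
    rw [hW]
    have h3 : (BF.cop (Fin n) ρ).PosDef := by
      have h4 : BF.cop (Fin n) ρ = ((lo ^ Fintype.card (Fin n) : ℝ) : ℂ) •
          (1 : Matrix ((Fin n → A) × (Fin n → B)) ((Fin n → A) × (Fin n → B)) ℂ) +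
            (BF.cop (Fin n) ρ - ((lo ^ Fintype.card (Fin n) : ℝ) : ℂ) • 1) := by abel
      rw [h4]
      exact (PosDef.one.smul (by exact_mod_cast pow_pos hlo _)).add_posSemidef hlown
    exact ⟨(BF.cop (Fin n) ρ)⁻¹, Matrix.mul_nonsing_inv _
      ((Matrix.isUnit_iff_isUnit_det _).mp h3.isUnit)⟩
  obtain ⟨W', hW'⟩ := hunit
  obtain ⟨hf, hg⟩ := Lim.locc_psd hL
  -- exchange of the parties
  have hρ' : (ρ.submatrix (Prod.swap : B × A → A × B) Prod.swap - (lo : ℂ) • 1).PosSemidef := by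
    have h3 := h1.submatrix (Prod.swap : B × A → A × B)
    have h4 : (ρ - (lo : ℂ) • 1).submatrix (Prod.swap : B × A → A × B) Prod.swap =
        ρ.submatrix Prod.swap Prod.swap - (lo : ℂ) • 1 := by
      ext p q
      simp only [submatrix_apply, Matrix.sub_apply, Matrix.smul_apply, Matrix.one_apply,
        Prod.swap_injective.eq_iff]
    rwa [h4] at h3
  have hρ'' : ((hi : ℂ) • 1 - ρ.submatrix (Prod.swap : B × A → A × B)
      Prod.swap).PosSemidef := by
    have h3 := h2.submatrix (Prod.swap : B × A → A × B)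
    have h4 : ((hi : ℂ) • 1 - ρ).submatrix (Prod.swap : B × A → A × B) Prod.swap =
        (hi : ℂ) • 1 - ρ.submatrix Prod.swap Prod.swap := by
      ext p q
      simp only [submatrix_apply, Matrix.sub_apply, Matrix.smul_apply, Matrix.one_apply,
        Prod.swap_injective.eq_iff]
    rwa [h4] at h3
  have hκ : 0 ≤ c * (hi / lo) ^ M :=
    mul_nonneg hc.le (pow_nonneg (div_nonneg (hlo.trans_le hlohi).le hlo.le) M)
  have hkey := BF.key_bound (copies n Ψ) hW' f g hf hg hκ (fun t => ?_) herr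
  · have hcard : (Fintype.card (Fin ℓ → Bool) : ℝ) = 2 ^ ℓ := by simp
    rwa [hcard] at hkey
  · rcases hprod t with h | h
    · left
      rcases ext_or_zero hPA h12 hlo hlohi hc hρ' hρ'' hN (posSemidef_sum _ fun k _ => hf t k) h
        with h0 | h0
      · exact Or.inl h0
      · right
        rw [hW]
        exact h0
    · right
      rw [hW]
      exact ext_or_zero hPB h12 hlo hlohi hc h1 h2 hN (posSemidef_sum _ fun k _ => hg t k) h

end StabF

end Vale.Agent.P372
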