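import Vale.Agent.P372.StabF.Main

open Matrix Kronecker
open scoped ComplexOrder MatrixOrder

set_option linter.unusedSectionVars false

namespace Vale.Agent.P372

namespace StabF

variable {A B X Y D : Type} [Fintype A] [DecidableEq A] [Fintype B] [DecidableEq B]
  [Fintype X] [DecidableEq X] [Fintype Y] [DecidableEq Y] [Fintype D] [DecidableEq D]

theorem ft_eq (V : Matrix D Y ℂ) (M : Matrix (X × Y) (X × Y) ℂ) :
    ft V M = ((1 : Matrix X X ℂ) ⊗ₖ V) * M * ((1 : Matrix X X ℂ) ⊗ₖ V)ᴴ := by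
  ext p q
  have e0 : ∀ (p : X × D) (u : X × Y), ((1 : Matrix X X ℂ) ⊗ₖ V) p u =
      if p.1 = u.1 then V p.2 u.2 else 0 := by
    intro p u
    rw [kroneckerMap_apply, Matrix.one_apply]
    split_ifs <;> simp
  have e1 : ∀ u : X × Y, (((1 : Matrix X X ℂ) ⊗ₖ V) * M) p u = ∑ y, V p.2 y * M (p.1, y) u := by
    intro u
    rw [Matrix.mul_apply, Fintype.sum_prod_type, Finset.sum_eq_single p.1]
    · simp
    · intro x _ hx
      refine Finset.sum_eq_zero fun y _ => ?_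
      simp [Ne.symm hx]
    · simp
  have e2 : ∀ u : X × Y, ((1 : Matrix X X ℂ) ⊗ₖ V)ᴴ u q =
      if q.1 = u.1 then star (V q.2 u.2) else 0 := by
    intro u
    rw [conjTranspose_apply, e0]
    split_ifs <;> simp
  rw [Matrix.mul_apply, Fintype.sum_prod_type, Finset.sum_eq_single q.1]
  · simp only [e1, e2, ft, Finset.sum_mul, if_true]
    rw [Finset.sum_comm]
  · intro x _ hx
    refine Finset.sum_eq_zero fun y _ => ?_
    rw [e2, if_neg (Ne.symm hx), mul_zero]
  · simp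

theorem ptr_ft (V : Matrix D Y ℂ) (M : Matrix (X × Y) (X × Y) ℂ) :
    ptr (ft V M) = BF.ctr M (Vᴴ * V) := by
  ext x x'
  simp only [ptr, Matrix.sum_apply, blk, ft, BF.ctr, Matrix.mul_apply, conjTranspose_apply,
    Finset.mul_sum]
  rw [Finset.sum_comm]
  refine Finset.sum_congr rfl fun y _ => ?_
  rw [Finset.sum_comm]
  refine Finset.sum_congr rfl fun y' _ => Finset.sum_congr rfl fun d _ => ?_
  ring

/-- Product of site operators on `n` copies. -/
def sp {ι : Type} [Fintype ι] [DecidableEq ι] (M : ι → Matrix (A × B) (A × B) ℂ) :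
    Matrix ((ι → A) × (ι → B)) ((ι → A) × (ι → B)) ℂ :=
  fun p q => ∏ i, M i (p.1 i, p.2 i) (q.1 i, q.2 i)

/-- Product of local operators. -/
def tens {ι : Type} [Fintype ι] [DecidableEq ι] (u : ι → Matrix A A ℂ) : Matrix (ι → A) (ι → A) ℂ :=
  fun p q => ∏ i, u i (p i) (q i)

theorem flag_eq {ι : Type} [Fintype ι] [DecidableEq ι] (S : Matrix (A × B) (A × B) ℂ) (α : ℝ) (τ : ι → Bool) :
    flag S α τ = sp fun i => if τ i then S else (α : ℂ) • 1 := rfl

theorem sp_mul {ι : Type} [Fintype ι] [DecidableEq ι] (M N : ι → Matrix (A × B) (A × B) ℂ) :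
    sp M * sp N = sp fun i => M i * N i := by
  ext p q
  rw [Matrix.mul_apply, Fintype.sum_prod_type]
  simp only [sp, Matrix.mul_apply, Fintype.sum_prod_type]
  have h2 := Finset.prod_univ_sum (fun _ : ι => (Finset.univ : Finset A))
    (fun i a => ∑ b, M i (p.1 i, p.2 i) (a, b) * N i (a, b) (q.1 i, q.2 i))
  rw [Fintype.piFinset_univ] at h2
  rw [h2]
  refine Finset.sum_congr rfl fun x _ => ?_
  have h3 := Finset.prod_univ_sum (fun _ : ι => (Finset.univ : Finset B))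
    (fun i b => M i (p.1 i, p.2 i) (x i, b) * N i (x i, b) (q.1 i, q.2 i))
  rw [Fintype.piFinset_univ] at h3
  rw [h3]
  refine Finset.sum_congr rfl fun y _ => ?_
  rw [← Finset.prod_mul_distrib]

theorem tens_kron {ι : Type} [Fintype ι] [DecidableEq ι] (u : ι → Matrix A A ℂ) (w : ι → Matrix B B ℂ) :
    tens u ⊗ₖ tens w = sp fun i => u i ⊗ₖ w i := by
  ext p q
  simp only [kroneckerMap_apply, tens, sp, Finset.prod_mul_distrib]

theorem tens_mul {ι : Type} [Fintype ι] [DecidableEq ι] (u w : ι → Matrix A A ℂ) :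
    tens u * tens w = tens fun i => u i * w i := by
  ext p q
  rw [Matrix.mul_apply]
  simp only [tens, Matrix.mul_apply]
  have h2 := Finset.prod_univ_sum (fun _ : ι => (Finset.univ : Finset A))
    (fun i a => u i (p i) a * w i a (q i))
  rw [Fintype.piFinset_univ] at h2
  rw [h2]
  refine Finset.sum_congr rfl fun y _ => ?_
  rw [← Finset.prod_mul_distrib]

theorem tens_conjTranspose {ι : Type} [Fintype ι] [DecidableEq ι] (u : ι → Matrix A A ℂ) :
    (tens u)ᴴ = tens fun i => (u i)ᴴ := by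
  ext p q
  simp only [tens, conjTranspose_apply, star_prod]

theorem tens_one {ι : Type} [Fintype ι] [DecidableEq ι] : tens (fun _ : ι => (1 : Matrix A A ℂ)) = 1 := by
  ext p q
  simp only [tens, Matrix.one_apply]
  by_cases h : p = q
  · subst h
    simp
  · rw [if_neg h]
    obtain ⟨i, hi⟩ := Function.ne_iff.mp h
    exact Finset.prod_eq_zero (Finset.mem_univ i) (if_neg hi)

/-- Contraction of a product of site operators with a product operator. -/
theorem ctr_sp {ι : Type} [Fintype ι] [DecidableEq ι] (M : ι → Matrix (A × B) (A × B) ℂ) (u : ι → Matrix B B ℂ) :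
    BF.ctr (sp M) (tens u) = tens fun i => BF.ctr (M i) (u i) := by
  ext x x'
  simp only [BF.ctr, sp, tens]
  have h2 := Finset.prod_univ_sum (fun _ : ι => (Finset.univ : Finset B))
    (fun i b => ∑ b', M i (x i, b) (x' i, b') * u i b' b)
  rw [Fintype.piFinset_univ] at h2
  rw [h2]
  refine Finset.sum_congr rfl fun y _ => ?_
  have h3 := Finset.prod_univ_sum (fun _ : ι => (Finset.univ : Finset B))
    (fun i b' => M i (x i, y i) (x' i, b') * u i b' (y i))
  rw [Fintype.piFinset_univ] at h3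
  rw [h3]
  refine Finset.sum_congr rfl fun y' _ => ?_
  rw [← Finset.prod_mul_distrib]

theorem ctr_add_right (M : Matrix (X × Y) (X × Y) ℂ) (P Q : Matrix Y Y ℂ) :
    BF.ctr M (P + Q) = BF.ctr M P + BF.ctr M Q := by
  ext x x'
  simp only [BF.ctr, Matrix.add_apply, mul_add, Finset.sum_add_distrib]

theorem ctr_smul_right (M : Matrix (X × Y) (X × Y) ℂ) (c : ℂ) (P : Matrix Y Y ℂ) :
    BF.ctr M (c • P) = c • BF.ctr M P := by
  ext x x'
  simp only [BF.ctr, Matrix.smul_apply, smul_eq_mul, Finset.mul_sum]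
  refine Finset.sum_congr rfl fun y _ => Finset.sum_congr rfl fun y' _ => ?_
  ring

/-- The operators `u` and `w` of Bob have the partner `u'`: `u' ⊗ w` commutes with `S`, and the
partial contractions of `S` and of the identity with `u` are multiples of `u'`. -/
structure IsSite (S : Matrix (A × B) (A × B) ℂ) (u' : Matrix A A ℂ) (u w : Matrix B B ℂ) :
    Prop where
  tr : ∃ r : ℂ, BF.ctr (1 : Matrix (A × B) (A × B) ℂ) u = r • u'
  ctr : ∃ r : ℂ, BF.ctr S u = r • u'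
  comm : Commute (u' ⊗ₖ w) S

/-- The projection `Pi` is a combination of products `⊗ u_j` such that there are `w_j`, with
`P (u_j) (w_j)` for all `j`, and `⊗ w_j` acts on the range of `Pi` as a nonzero scalar. -/
def IsCode {ι : Type} [Fintype ι] [DecidableEq ι] (P : Matrix B B ℂ → Matrix B B ℂ → Prop)
    (Pi : Matrix (ι → B) (ι → B) ℂ) : Prop :=
  Piᴴ = Pi ∧ Pi * Pi = Pi ∧ Pi ∈ Submodule.span ℂ {h | ∃ u w : ι → Matrix B B ℂ,
    (∀ i, P (u i) (w i)) ∧ h = tens u ∧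
      ∃ χ : ℂ, χ ≠ 0 ∧ tens w * Pi = χ • Pi ∧ Pi * tens w = χ • Pi}

/-- Alice's partner of an operator of the code commutes with the filtered operator. -/
theorem commute_local {Pi h : Matrix Y Y ℂ} {h' : Matrix X X ℂ} {M : Matrix (X × Y) (X × Y) ℂ}
    (h1 : Piᴴ = Pi) {χ : ℂ} (h0 : χ ≠ 0) (hχ : h * Pi = χ • Pi) (hχ' : Pi * h = χ • Pi)
    (hM : Commute (h' ⊗ₖ h) M) :
    Commute (h' ⊗ₖ (1 : Matrix Y Y ℂ)) (ft Pi M) := by
  have hb : ((1 : Matrix X X ℂ) ⊗ₖ Pi)ᴴ = (1 : Matrix X X ℂ) ⊗ₖ Pi := by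
    rw [conjTranspose_kronecker, conjTranspose_one, h1]
  have hab : (h' ⊗ₖ (1 : Matrix Y Y ℂ)) * ((1 : Matrix X X ℂ) ⊗ₖ Pi) =
      χ⁻¹ • (((1 : Matrix X X ℂ) ⊗ₖ Pi) * (h' ⊗ₖ h)) := by
    rw [← mul_kronecker_mul, ← mul_kronecker_mul, Matrix.mul_one, Matrix.one_mul,
      Matrix.one_mul, hχ', kronecker_smul, smul_smul, inv_mul_cancel₀ h0, one_smul]
  have hba : (h' ⊗ₖ h) * ((1 : Matrix X X ℂ) ⊗ₖ Pi) =
      χ • (((1 : Matrix X X ℂ) ⊗ₖ Pi) * (h' ⊗ₖ (1 : Matrix Y Y ℂ))) := by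
    rw [← mul_kronecker_mul, ← mul_kronecker_mul, Matrix.mul_one, Matrix.one_mul,
      Matrix.mul_one, hχ, kronecker_smul]
  rw [ft_eq, hb]
  show (h' ⊗ₖ (1 : Matrix Y Y ℂ)) * (((1 : Matrix X X ℂ) ⊗ₖ Pi) * M *
      ((1 : Matrix X X ℂ) ⊗ₖ Pi)) =
    (((1 : Matrix X X ℂ) ⊗ₖ Pi) * M * ((1 : Matrix X X ℂ) ⊗ₖ Pi)) * (h' ⊗ₖ (1 : Matrix Y Y ℂ))
  calc (h' ⊗ₖ (1 : Matrix Y Y ℂ)) * (((1 : Matrix X X ℂ) ⊗ₖ Pi) * M *
        ((1 : Matrix X X ℂ) ⊗ₖ Pi))
      = ((h' ⊗ₖ (1 : Matrix Y Y ℂ)) * ((1 : Matrix X X ℂ) ⊗ₖ Pi)) * M *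
        ((1 : Matrix X X ℂ) ⊗ₖ Pi) := by simp only [Matrix.mul_assoc]
    _ = χ⁻¹ • (((1 : Matrix X X ℂ) ⊗ₖ Pi) * ((h' ⊗ₖ h) * M) * ((1 : Matrix X X ℂ) ⊗ₖ Pi)) := by
        rw [hab]
        simp only [Matrix.smul_mul, Matrix.mul_assoc]
    _ = χ⁻¹ • (((1 : Matrix X X ℂ) ⊗ₖ Pi) * M * ((h' ⊗ₖ h) * ((1 : Matrix X X ℂ) ⊗ₖ Pi))) := by
        rw [hM.eq]
        simp only [Matrix.mul_assoc]
    _ = _ := by
        rw [hba, Matrix.mul_smul, smul_smul, inv_mul_cancel₀ h0, one_smul]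
        simp only [Matrix.mul_assoc]

/-- The commutation hypothesis of `exists_ext` for codes. -/
theorem code_comm {ι : Type} [Fintype ι] [DecidableEq ι] {S : Matrix (A × B) (A × B) ℂ} {α : ℝ}
    {P : Matrix B B ℂ → Matrix B B ℂ → Prop}
    (hP : ∀ u w, P u w → ∃ u', IsSite S u' u w) {Pi : Matrix (ι → B) (ι → B) ℂ} (hPi : IsCode P Pi)
    (σ τ : ι → Bool) (d d' : ι → B) :
    Commute (ptr (ft Pi (flag S α σ))) (blk (ft Pi (flag S α τ)) d d') := by
  obtain ⟨h1, h2, h3⟩ := hPi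
  rw [ptr_ft, h1, h2]
  refine Submodule.span_induction (p := fun Z _ => Commute (BF.ctr (flag S α σ) Z)
    (blk (ft Pi (flag S α τ)) d d')) ?_ ?_ ?_ ?_ h3
  · rintro h ⟨u, w, hu, rfl, χ, h0, hχ, hχ'⟩
    choose u' hu' using fun i => hP (u i) (w i) (hu i)
    have hsite : ∀ i, ∃ r : ℂ, BF.ctr (if σ i = true then S else (α : ℂ) • 1) (u i) =
        r • u' i := by
      intro i
      split_ifs
      · exact (hu' i).ctr
      · obtain ⟨r, hr⟩ := (hu' i).tr
        refine ⟨α * r, ?_⟩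
        rw [← smul_smul, ← hr]
        ext x x'
        simp only [BF.ctr, Matrix.smul_apply, smul_eq_mul, Finset.mul_sum]
        refine Finset.sum_congr rfl fun y _ => Finset.sum_congr rfl fun y' _ => ?_
        ring
    choose r hr using hsite
    have e1 : BF.ctr (flag S α σ) (tens u) = (∏ i, r i) • tens u' := by
      rw [flag_eq, ctr_sp]
      ext x x'
      rw [Matrix.smul_apply, smul_eq_mul]
      simp only [tens, hr, Matrix.smul_apply, smul_eq_mul, Finset.prod_mul_distrib]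
    rw [e1]
    refine Commute.smul_left ?_ _
    have hM : Commute (tens u' ⊗ₖ tens w) (flag S α τ) := by
      rw [tens_kron, flag_eq]
      show _ * _ = _ * _
      rw [sp_mul, sp_mul]
      congr 1
      funext i
      split_ifs
      · exact (hu' i).comm
      · rw [Matrix.mul_smul, Matrix.smul_mul, Matrix.mul_one, Matrix.one_mul]
    have h4 := commute_local h1 h0 hχ hχ' hM
    have h5 : blk ((tens u' ⊗ₖ (1 : Matrix (ι → B) (ι → B) ℂ)) * ft Pi (flag S α τ)) d d' =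
        blk (ft Pi (flag S α τ) * (tens u' ⊗ₖ (1 : Matrix (ι → B) (ι → B) ℂ))) d d' := by
      rw [h4.eq]
    rw [blk_mul_left, blk_mul_right] at h5
    exact h5
  · have e0 : BF.ctr (flag S α σ) 0 = 0 := by
      ext x x'
      simp [BF.ctr]
    rw [e0]
    exact Commute.zero_left _
  · intro x y _ _ hx hy
    rw [ctr_add_right]
    exact hx.add_left hy
  · intro c x _ hx
    rw [ctr_smul_right]
    exact hx.smul_left c

end StabF

end Vale.Agent.P372
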