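import Vale.Agent.P372.MathlibUsed

namespace Vale.Agent.P372

namespace StabF

theorem sum_cons {n : ℕ} (F : (Fin (n + 1) → Bool) → ℝ) :
    ∑ τ, F τ = ∑ τ : Fin n → Bool, F (Fin.cons true τ) + ∑ τ : Fin n → Bool, F (Fin.cons false τ) := by
  rw [← Equiv.sum_comp (Fin.consEquiv fun _ => Bool), Fintype.sum_prod_type, Fintype.sum_bool]
  rfl

/-- Adding a site does not increase `P`. -/
def Dec {ι : Type} [DecidableEq ι] (P : (ι → Bool) → ℝ) : Prop :=
  ∀ τ i, P (Function.update τ i true) ≤ P (Function.update τ i false)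

theorem Dec.tail {n : ℕ} {P : (Fin (n + 1) → Bool) → ℝ} (h : Dec P) (b : Bool) :
    Dec fun τ => P (Fin.cons b τ) := by
  intro τ i
  have h1 := h (Fin.cons b τ) i.succ
  rwa [← Fin.cons_update, ← Fin.cons_update] at h1

theorem Dec.smul {n : ℕ} {P : (Fin n → Bool) → ℝ} (h : Dec P) {c : ℝ} (hc : 0 ≤ c) :
    Dec fun τ => c * P τ :=
  fun τ i => mul_le_mul_of_nonneg_left (h τ i) hc

theorem Dec.head {n : ℕ} {P : (Fin (n + 1) → Bool) → ℝ} (h : Dec P) (τ : Fin n → Bool) :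
    P (Fin.cons true τ) ≤ P (Fin.cons false τ) := by
  have h1 := h (Fin.cons true τ) 0
  rwa [Fin.update_cons_zero, Fin.update_cons_zero] at h1

/-- Two decreasing measures of the same mass have a coupling by disjoint sets. -/
theorem couple_fin : ∀ (n : ℕ) (P P' : (Fin n → Bool) → ℝ), (∀ τ, 0 ≤ P τ) → (∀ τ, 0 ≤ P' τ) →
    Dec P → Dec P' → ∑ τ, P τ = ∑ τ, P' τ →
    ∃ W : (Fin n → Bool) → (Fin n → Bool) → ℝ, (∀ τ τ', 0 ≤ W τ τ') ∧
      (∀ τ τ', (∃ i, τ i = true ∧ τ' i = true) → W τ τ' = 0) ∧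
      (∀ τ, ∑ τ', W τ τ' = P τ) ∧ ∀ τ', ∑ τ, W τ τ' = P' τ' := by
  intro n
  induction n with
  | zero =>
    intro P P' h0 _ _ _ hs
    refine ⟨fun _ _ => P default, fun _ _ => h0 _, fun τ τ' ⟨i, _⟩ => i.elim0, ?_, ?_⟩
    · intro τ
      rw [Finset.univ_unique, Finset.sum_singleton, Subsingleton.elim τ default]
    · intro τ
      rw [Finset.univ_unique, Finset.sum_singleton, Subsingleton.elim τ default]
      rw [Finset.univ_unique, Finset.sum_singleton, Finset.sum_singleton] at hs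
      show P _ = P' _
      exact (congrArg P (Subsingleton.elim _ _)).trans
        (hs.trans (congrArg P' (Subsingleton.elim _ _)))
  | succ n ih =>
    intro P P' h0 h0' hd hd' hs
    obtain ⟨m0, hm0⟩ : ∃ m0, m0 = ∑ τ : Fin n → Bool, P (Fin.cons false τ) := ⟨_, rfl⟩
    obtain ⟨m1, hm1⟩ : ∃ m1, m1 = ∑ τ : Fin n → Bool, P (Fin.cons true τ) := ⟨_, rfl⟩
    obtain ⟨k0, hk0⟩ : ∃ k0, k0 = ∑ τ : Fin n → Bool, P' (Fin.cons false τ) := ⟨_, rfl⟩
    obtain ⟨k1, hk1⟩ : ∃ k1, k1 = ∑ τ : Fin n → Bool, P' (Fin.cons true τ) := ⟨_, rfl⟩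
    rw [sum_cons, sum_cons, ← hm0, ← hm1, ← hk0, ← hk1] at hs
    have hm1' : 0 ≤ m1 := by rw [hm1]; exact Finset.sum_nonneg fun τ _ => h0 _
    have hk1' : 0 ≤ k1 := by rw [hk1]; exact Finset.sum_nonneg fun τ _ => h0' _
    have hm01 : m1 ≤ m0 := by
      rw [hm0, hm1]
      exact Finset.sum_le_sum fun τ _ => hd.head τ
    have hk01 : k1 ≤ k0 := by
      rw [hk0, hk1]
      exact Finset.sum_le_sum fun τ _ => hd'.head τ
    by_cases hz : m0 = 0
    · -- everything vanishes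
      have hk00 : k0 = 0 := by linarith
      have e1 : ∀ τ : Fin n → Bool, P (Fin.cons false τ) = 0 := by
        intro τ
        rw [hm0] at hz
        exact (Finset.sum_eq_zero_iff_of_nonneg fun τ _ => h0 _).mp hz τ (Finset.mem_univ τ)
      have e2 : ∀ τ : Fin n → Bool, P' (Fin.cons false τ) = 0 := by
        intro τ
        rw [hk0] at hk00
        exact (Finset.sum_eq_zero_iff_of_nonneg fun τ _ => h0' _).mp hk00 τ (Finset.mem_univ τ)
      have e3 : ∀ τ : Fin (n + 1) → Bool, P τ = 0 := by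
        intro τ
        obtain ⟨b, τ', rfl⟩ : ∃ (b : Bool) (τ' : Fin n → Bool), τ = Fin.cons b τ' :=
          ⟨τ 0, Fin.tail τ, (Fin.cons_self_tail τ).symm⟩
        cases b
        · exact e1 τ'
        · exact le_antisymm ((hd.head τ').trans (e1 τ').le) (h0 _)
      have e4 : ∀ τ : Fin (n + 1) → Bool, P' τ = 0 := by
        intro τ
        obtain ⟨b, τ', rfl⟩ : ∃ (b : Bool) (τ' : Fin n → Bool), τ = Fin.cons b τ' :=
          ⟨τ 0, Fin.tail τ, (Fin.cons_self_tail τ).symm⟩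
        cases b
        · exact e2 τ'
        · exact le_antisymm ((hd'.head τ').trans (e2 τ').le) (h0' _)
      exact ⟨fun _ _ => 0, fun _ _ => le_rfl, fun _ _ _ => rfl, fun τ => by simp [e3],
        fun τ => by simp [e4]⟩
    · have hm0p : 0 < m0 := lt_of_le_of_ne (hm1'.trans hm01) (Ne.symm hz)
      have hk0p : 0 < k0 := by linarith
      obtain ⟨A, hA1, hA2, hA3, hA4⟩ := ih (fun τ => P (Fin.cons true τ))
        (fun τ => m1 / k0 * P' (Fin.cons false τ)) (fun τ => h0 _)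
        (fun τ => mul_nonneg (div_nonneg hm1' hk0p.le) (h0' _)) (hd.tail true)
        ((hd'.tail false).smul (div_nonneg hm1' hk0p.le)) (by
          rw [← hm1, ← Finset.mul_sum, ← hk0]
          field_simp)
      obtain ⟨B, hB1, hB2, hB3, hB4⟩ := ih (fun τ => k1 / m0 * P (Fin.cons false τ))
        (fun τ => P' (Fin.cons true τ))
        (fun τ => mul_nonneg (div_nonneg hk1' hm0p.le) (h0 _)) (fun τ => h0' _)
        ((hd.tail false).smul (div_nonneg hk1' hm0p.le)) (hd'.tail true) (by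
          rw [← hk1, ← Finset.mul_sum, ← hm0]
          field_simp)
      have hc1 : 0 ≤ (m0 - k1) / m0 := div_nonneg (by linarith) hm0p.le
      have hc2 : 0 ≤ (k0 - m1) / k0 := div_nonneg (by linarith) hk0p.le
      obtain ⟨C, hC1, hC2, hC3, hC4⟩ := ih (fun τ => (m0 - k1) / m0 * P (Fin.cons false τ))
        (fun τ => (k0 - m1) / k0 * P' (Fin.cons false τ))
        (fun τ => mul_nonneg hc1 (h0 _)) (fun τ => mul_nonneg hc2 (h0' _))
        ((hd.tail false).smul hc1) ((hd'.tail false).smul hc2) (by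
          rw [← Finset.mul_sum, ← Finset.mul_sum, ← hm0, ← hk0]
          field_simp
          linarith)
      obtain ⟨G, hG⟩ : ∃ G : Bool → Bool → (Fin n → Bool) → (Fin n → Bool) → ℝ,
          G true true = (fun _ _ => 0) ∧ G true false = A ∧ G false true = B ∧
            G false false = C :=
        ⟨fun b b' => bif b then (bif b' then (fun _ _ => 0) else A) else (bif b' then B else C),
          rfl, rfl, rfl, rfl⟩
      obtain ⟨hG1, hG2, hG3, hG4⟩ := hG
      refine ⟨fun τ τ' => G (τ 0) (τ' 0) (Fin.tail τ) (Fin.tail τ'), ?_, ?_, ?_, ?_⟩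
      · intro τ τ'
        show 0 ≤ G (τ 0) (τ' 0) (Fin.tail τ) (Fin.tail τ')
        cases τ 0 <;> cases τ' 0
        · rw [hG4]; exact hC1 _ _
        · rw [hG3]; exact hB1 _ _
        · rw [hG2]; exact hA1 _ _
        · rw [hG1]
      · rintro τ τ' ⟨i, hi, hi'⟩
        show G (τ 0) (τ' 0) (Fin.tail τ) (Fin.tail τ') = 0
        have hj : ∀ b b', τ 0 = b → τ' 0 = b' → ¬ (b = true ∧ b' = true) →
            ∃ j, Fin.tail τ j = true ∧ Fin.tail τ' j = true := by
          intro b b' h1 h2 h3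
          revert hi hi'
          refine Fin.cases ?_ (fun j => ?_) i
          · intro h4 h5
            exact absurd ⟨h1.symm.trans h4, h2.symm.trans h5⟩ h3
          · intro h4 h5
            exact ⟨j, h4, h5⟩
        cases h1 : τ 0 <;> cases h2 : τ' 0
        · rw [hG4]; exact hC2 _ _ (hj _ _ h1 h2 (by decide))
        · rw [hG3]; exact hB2 _ _ (hj _ _ h1 h2 (by decide))
        · rw [hG2]; exact hA2 _ _ (hj _ _ h1 h2 (by decide))
        · rw [hG1]
      · intro τ
        obtain ⟨b, τ', rfl⟩ : ∃ (b : Bool) (τ' : Fin n → Bool), τ = Fin.cons b τ' :=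
          ⟨τ 0, Fin.tail τ, (Fin.cons_self_tail τ).symm⟩
        rw [sum_cons]
        cases b
        · simp only [Fin.cons_zero, Fin.tail_cons, hG3, hG4]
          rw [hB3, hC3]
          field_simp
          ring
        · simp only [Fin.cons_zero, Fin.tail_cons, hG1, hG2]
          rw [hA3]
          simp
      · intro τ
        obtain ⟨b, τ', rfl⟩ : ∃ (b : Bool) (τ' : Fin n → Bool), τ = Fin.cons b τ' :=
          ⟨τ 0, Fin.tail τ, (Fin.cons_self_tail τ).symm⟩
        rw [sum_cons]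
        cases b
        · simp only [Fin.cons_zero, Fin.tail_cons, hG2, hG4]
          rw [hA4, hC4]
          field_simp
          ring
        · simp only [Fin.cons_zero, Fin.tail_cons, hG1, hG3]
          rw [hB4]
          simp

/-- Two decreasing measures of the same mass have a coupling by disjoint sets. -/
theorem couple {ι : Type} [Fintype ι] [DecidableEq ι] (P P' : (ι → Bool) → ℝ)
    (h0 : ∀ τ, 0 ≤ P τ) (h0' : ∀ τ, 0 ≤ P' τ) (hd : Dec P) (hd' : Dec P')
    (hs : ∑ τ, P τ = ∑ τ, P' τ) :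
    ∃ W : (ι → Bool) → (ι → Bool) → ℝ, (∀ τ τ', 0 ≤ W τ τ') ∧
      (∀ τ τ', (∃ i, τ i = true ∧ τ' i = true) → W τ τ' = 0) ∧
      (∀ τ, ∑ τ', W τ τ' = P τ) ∧ ∀ τ', ∑ τ, W τ τ' = P' τ' := by
  obtain ⟨e⟩ : Nonempty (ι ≃ Fin (Fintype.card ι)) := ⟨Fintype.equivFin ι⟩
  have hup : ∀ (τ : Fin (Fintype.card ι) → Bool) (i : Fin (Fintype.card ι)) (b : Bool),
      (Function.update τ i b) ∘ e = Function.update (τ ∘ e) (e.symm i) b := by
    intro τ i b
    funext j
    by_cases h : j = e.symm i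
    · subst h
      simp
    · have h2 : e j ≠ i := fun h3 => h (by rw [← h3, e.symm_apply_apply])
      rw [Function.update_of_ne h, Function.comp_apply, Function.update_of_ne h2,
        Function.comp_apply]
  have hdec : ∀ Q : (ι → Bool) → ℝ, Dec Q →
      Dec fun τ : Fin (Fintype.card ι) → Bool => Q (τ ∘ e) := by
    intro Q hQ τ i
    show Q (_ ∘ e) ≤ Q (_ ∘ e)
    rw [hup, hup]
    exact hQ _ _
  obtain ⟨E, hE⟩ : ∃ E : (ι → Bool) ≃ (Fin (Fintype.card ι) → Bool), ∀ τ, E τ = τ ∘ e.symm :=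
    ⟨e.arrowCongr (Equiv.refl Bool), fun τ => rfl⟩
  have hE' : ∀ τ, E.symm τ = τ ∘ e := by
    intro τ
    rw [Equiv.symm_apply_eq, hE]
    funext i
    simp
  have hsum : ∀ Q : (ι → Bool) → ℝ, ∑ τ : Fin (Fintype.card ι) → Bool, Q (τ ∘ e) = ∑ τ, Q τ := by
    intro Q
    rw [← Equiv.sum_comp E.symm]
    simp only [hE']
  obtain ⟨W, hW1, hW2, hW3, hW4⟩ := couple_fin (Fintype.card ι) (fun τ => P (τ ∘ e))
    (fun τ => P' (τ ∘ e)) (fun τ => h0 _) (fun τ => h0' _) (hdec P hd) (hdec P' hd')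
    (by rw [hsum, hsum, hs])
  refine ⟨fun τ τ' => W (E τ) (E τ'), fun τ τ' => hW1 _ _, fun τ τ' h => hW2 _ _ ?_,
    fun τ => ?_, fun τ' => ?_⟩
  · obtain ⟨i, hi⟩ := h
    refine ⟨e i, ?_⟩
    rw [hE, hE]
    simpa using hi
  · rw [Equiv.sum_comp E (fun τ' => W (E τ) τ'), hW3, ← hE', Equiv.symm_apply_apply]
  · rw [Equiv.sum_comp E (fun τ => W τ (E τ')), hW4, ← hE', Equiv.symm_apply_apply]

end StabF

end Vale.Agent.P372
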