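import Vale.Agent.P372.StabF.Couple

set_option linter.unusedSectionVars false

namespace Vale.Agent.P372

namespace StabF

variable {κ : Type} [Fintype κ] [DecidableEq κ]

/-- The sites that are flagged for the copy `a`. -/
def fl {ι : Type} (g : ι → Option κ) (a : κ) : ι → Bool := fun i => decide (g i = some a)

/-- Adding a site divides `P` by at least `K`. -/
def DecK {ι : Type} [DecidableEq ι] (K : ℝ) (P : (ι → Bool) → ℝ) : Prop :=
  ∀ τ i, K * P (Function.update τ i true) ≤ P (Function.update τ i false)

theorem DecK.tail {n : ℕ} {K : ℝ} {P : (Fin (n + 1) → Bool) → ℝ} (h : DecK K P) (b : Bool) :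
    DecK K fun τ => P (Fin.cons b τ) := by
  intro τ i
  have h1 := h (Fin.cons b τ) i.succ
  rwa [← Fin.cons_update, ← Fin.cons_update] at h1

theorem DecK.smul {n : ℕ} {K : ℝ} {P : (Fin n → Bool) → ℝ} (h : DecK K P) {c : ℝ} (hc : 0 ≤ c) :
    DecK K fun τ => c * P τ := by
  intro τ i
  have := mul_le_mul_of_nonneg_left (h τ i) hc
  calc K * (c * P (Function.update τ i true)) = c * (K * P (Function.update τ i true)) := by ring
    _ ≤ _ := this

theorem DecK.head {n : ℕ} {K : ℝ} {P : (Fin (n + 1) → Bool) → ℝ} (h : DecK K P)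
    (τ : Fin n → Bool) : K * P (Fin.cons true τ) ≤ P (Fin.cons false τ) := by
  have h1 := h (Fin.cons true τ) 0
  rwa [Fin.update_cons_zero, Fin.update_cons_zero] at h1

theorem sum_cons_opt {n : ℕ} (F : (Fin (n + 1) → Option κ) → ℝ) :
    ∑ g, F g = ∑ o : Option κ, ∑ g : Fin n → Option κ, F (Fin.cons o g) := by
  rw [← Equiv.sum_comp (Fin.consEquiv fun _ => Option κ), Fintype.sum_prod_type]
  rfl

theorem fl_cons {n : ℕ} (o : Option κ) (g : Fin n → Option κ) (a : κ) :
    fl (Fin.cons o g : Fin (n + 1) → Option κ) a = Fin.cons (decide (o = some a)) (fl g a) := by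
  funext i
  refine Fin.cases ?_ (fun i => ?_) i
  · simp [fl]
  · simp [fl]

/-- Decreasing measures of the same mass have a coupling by pairwise disjoint sets. -/
theorem coupleK_fin {K : ℝ} (hK : 0 < K) (hκ : (Fintype.card κ : ℝ) ≤ K + 1) :
    ∀ (n : ℕ) (P : κ → (Fin n → Bool) → ℝ) (m : ℝ), 0 ≤ m → (∀ a τ, 0 ≤ P a τ) →
    (∀ a, DecK K (P a)) → (∀ a, ∑ τ, P a τ = m) →
    ∃ W : (Fin n → Option κ) → ℝ, (∀ g, 0 ≤ W g) ∧
      ∀ a τ, ∑ g, (if fl g a = τ then W g else 0) = P a τ := by
  intro n
  induction n with
  | zero =>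
    intro P m hm h0 _ hs
    refine ⟨fun _ => m, fun _ => hm, fun a τ => ?_⟩
    have h1 := hs a
    rw [Finset.univ_unique, Finset.sum_singleton] at h1
    rw [Finset.univ_unique, Finset.sum_singleton, if_pos (Subsingleton.elim _ _), ← h1,
      Subsingleton.elim τ default]
    exact congrArg (P a) (Subsingleton.elim _ _)
  | succ n ih =>
    intro P m hm h0 hd hs
    obtain ⟨m0, hm0⟩ : ∃ m0 : κ → ℝ, ∀ a, m0 a = ∑ τ : Fin n → Bool, P a (Fin.cons false τ) :=
      ⟨_, fun _ => rfl⟩
    obtain ⟨m1, hm1⟩ : ∃ m1 : κ → ℝ, ∀ a, m1 a = ∑ τ : Fin n → Bool, P a (Fin.cons true τ) :=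
      ⟨_, fun _ => rfl⟩
    have hm01 : ∀ a, m1 a + m0 a = m := by
      intro a
      rw [← hs a, sum_cons, hm0, hm1]
    have hm1n : ∀ a, 0 ≤ m1 a := fun a => by
      rw [hm1]; exact Finset.sum_nonneg fun τ _ => h0 _ _
    have hm0n : ∀ a, 0 ≤ m0 a := fun a => by
      rw [hm0]; exact Finset.sum_nonneg fun τ _ => h0 _ _
    have hKm : ∀ a, K * m1 a ≤ m0 a := by
      intro a
      rw [hm0, hm1, Finset.mul_sum]
      exact Finset.sum_le_sum fun τ _ => (hd a).head τ
    have hsum : ∑ a, m1 a ≤ m := by
      have h1 : ∀ a, m1 a ≤ m / (K + 1) := by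
        intro a
        rw [le_div_iff₀ (by linarith)]
        nlinarith [hKm a, hm01 a]
      calc ∑ a, m1 a ≤ ∑ _a : κ, m / (K + 1) := Finset.sum_le_sum fun a _ => h1 a
        _ = (Fintype.card κ : ℝ) * (m / (K + 1)) := by
            rw [Finset.sum_const, Finset.card_univ, nsmul_eq_mul]
        _ ≤ (K + 1) * (m / (K + 1)) :=
            mul_le_mul_of_nonneg_right hκ (div_nonneg hm (by linarith))
        _ = m := mul_div_cancel₀ _ (by linarith)
    -- degenerate case
    have hdeg : ∀ a, m0 a = 0 → m = 0 := by
      intro a h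
      have h1 := hKm a
      rw [h] at h1
      have h2 : m1 a = 0 := by
        refine le_antisymm ?_ (hm1n a)
        by_contra h3
        push Not at h3
        nlinarith [mul_pos hK h3]
      rw [← hm01 a, h, h2, add_zero]
    have hdeg1 : m = 0 → ∀ a, m1 a = 0 := by
      intro h a
      have := hm01 a
      have := hm1n a
      have := hm0n a
      linarith
    obtain ⟨Q, hQ⟩ : ∃ Q : Option κ → κ → (Fin n → Bool) → ℝ, Q = fun o a τ => match o with
        | some b => if b = a then P a (Fin.cons true τ) else m1 b / m0 a * P a (Fin.cons false τ)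
        | none => (m - ∑ c, m1 c) / m0 a * P a (Fin.cons false τ) := ⟨_, rfl⟩
    obtain ⟨mo, hmo⟩ : ∃ mo : Option κ → ℝ, mo = fun o => match o with
        | some b => m1 b
        | none => m - ∑ c, m1 c := ⟨_, rfl⟩
    have hcons : ∀ o : Option κ, ∃ W : (Fin n → Option κ) → ℝ, (∀ g, 0 ≤ W g) ∧
        ∀ a τ, ∑ g, (if fl g a = τ then W g else 0) = Q o a τ := by
      intro o
      refine ih (Q o) (mo o) ?_ ?_ ?_ ?_
      · rw [hmo]
        cases o with
        | none => exact sub_nonneg.mpr hsum
        | some b => exact hm1n b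
      · intro a τ
        rw [hQ]
        cases o with
        | none => exact mul_nonneg (div_nonneg (sub_nonneg.mpr hsum) (hm0n a)) (h0 _ _)
        | some b =>
          show 0 ≤ if b = a then _ else _
          split_ifs
          · exact h0 _ _
          · exact mul_nonneg (div_nonneg (hm1n b) (hm0n a)) (h0 _ _)
      · intro a
        rw [hQ]
        cases o with
        | none => exact ((hd a).tail false).smul (div_nonneg (sub_nonneg.mpr hsum) (hm0n a))
        | some b =>
          by_cases hba : b = a
          · have := (hd a).tail true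
            simpa only [hba, if_true] using this
          · have := ((hd a).tail false).smul (div_nonneg (hm1n b) (hm0n a))
            simpa only [hba, if_false] using this
      · intro a
        rw [hQ, hmo]
        cases o with
        | none =>
          show ∑ τ, (m - ∑ c, m1 c) / m0 a * P a (Fin.cons false τ) = m - ∑ c, m1 c
          rw [← Finset.mul_sum, ← hm0]
          by_cases h : m0 a = 0
          · have h2 := hdeg a h
            rw [h, h2]
            simp [hdeg1 h2]
          · rw [div_mul_cancel₀ _ h]
        | some b =>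
          show ∑ τ, (if b = a then P a (Fin.cons true τ) else
            m1 b / m0 a * P a (Fin.cons false τ)) = m1 b
          by_cases hba : b = a
          · simp only [hba, if_true]
            rw [← hm1]
          · simp only [hba, if_false]
            rw [← Finset.mul_sum, ← hm0]
            by_cases h : m0 a = 0
            · rw [h, hdeg1 (hdeg a h) b]
              simp
            · rw [div_mul_cancel₀ _ h]
    choose W hW1 hW2 using hcons
    refine ⟨fun g => W (g 0) (Fin.tail g), fun g => hW1 _ _, fun a τ => ?_⟩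
    obtain ⟨t, τ', rfl⟩ : ∃ t τ', τ = Fin.cons t τ' := ⟨τ 0, Fin.tail τ, (Fin.cons_self_tail τ).symm⟩
    rw [sum_cons_opt]
    have e1 : ∀ o : Option κ, ∑ g : Fin n → Option κ,
        (if fl (Fin.cons o g : Fin (n + 1) → Option κ) a = Fin.cons t τ' then
          W ((Fin.cons o g : Fin (n + 1) → Option κ) 0)
            (Fin.tail (Fin.cons o g : Fin (n + 1) → Option κ)) else 0) =
        if decide (o = some a) = t then Q o a τ' else 0 := by
      intro o
      simp only [fl_cons, Fin.cons_zero, Fin.tail_cons, Fin.cons_inj]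
      by_cases h : decide (o = some a) = t
      · simp only [h, true_and, if_true]
        exact hW2 o a τ'
      · simp only [h, false_and, if_false]
        simp
    simp only [e1]
    rw [Fintype.sum_option]
    cases t with
    | true =>
      have e2 : ∀ b : κ, (if decide (some b = some a) = true then Q (some b) a τ' else 0) =
          if b = a then P a (Fin.cons true τ') else 0 := by
        intro b
        rw [hQ]
        by_cases hba : b = a
        · simp [hba]
        · simp [hba]
      simp only [e2]
      simp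
    | false =>
      have e2 : ∀ b : κ, (if decide (some b = some a) = false then Q (some b) a τ' else 0) =
          m1 b / m0 a * P a (Fin.cons false τ') -
            if b = a then m1 a / m0 a * P a (Fin.cons false τ') else 0 := by
        intro b
        rw [hQ]
        by_cases hba : b = a
        · simp [hba]
        · simp [hba]
      have e3 : (if decide ((none : Option κ) = some a) = false then Q none a τ' else 0) =
          (m - ∑ c, m1 c) / m0 a * P a (Fin.cons false τ') := by
        rw [hQ]
        simp
      simp only [e2, e3]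
      rw [Finset.sum_sub_distrib, ← Finset.sum_mul, ← Finset.sum_div, Finset.sum_ite_eq' Finset.univ]
      simp only [Finset.mem_univ, if_true]
      by_cases h : m0 a = 0
      · have h4 : P a (Fin.cons false τ') = 0 := by
          have h5 := hm0 a
          rw [h] at h5
          exact (Finset.sum_eq_zero_iff_of_nonneg fun τ _ => h0 a _).mp h5.symm τ'
            (Finset.mem_univ _)
        rw [h4]
        simp
      · have h5 := hm01 a
        have h6 : (m - ∑ c, m1 c) / m0 a * P a (Fin.cons false τ') +
            ((∑ c, m1 c) / m0 a * P a (Fin.cons false τ') -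
              m1 a / m0 a * P a (Fin.cons false τ')) =
            (m - m1 a) / m0 a * P a (Fin.cons false τ') := by ring
        rw [h6]
        have h7 : m - m1 a = m0 a := by linarith
        rw [h7, div_self h, one_mul]

/-- Copies of one decreasing measure have a coupling by pairwise disjoint sets. -/
theorem coupleK {ι : Type} [Fintype ι] [DecidableEq ι] {K : ℝ} (hK : 0 < K)
    (hκ : (Fintype.card κ : ℝ) ≤ K + 1) (P : (ι → Bool) → ℝ) (h0 : ∀ τ, 0 ≤ P τ)
    (hd : DecK K P) :
    ∃ W : (ι → Option κ) → ℝ, (∀ g, 0 ≤ W g) ∧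
      ∀ a τ, ∑ g, (if fl g a = τ then W g else 0) = P τ := by
  obtain ⟨e⟩ : Nonempty (ι ≃ Fin (Fintype.card ι)) := ⟨Fintype.equivFin ι⟩
  have hup : ∀ (τ : Fin (Fintype.card ι) → Bool) (i : Fin (Fintype.card ι)) (b : Bool),
      (Function.update τ i b) ∘ e = Function.update (τ ∘ e) (e.symm i) b := by
    intro τ i b
    funext j
    by_cases h : j = e.symm i
    · subst h
      simp
    · have h2 : e j ≠ i := fun h3 => h (by rw [← h3, e.symm_apply_apply])
      rw [Function.update_of_ne h, Function.comp_apply, Function.update_of_ne h2,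
        Function.comp_apply]
  have hdec : DecK K fun τ : Fin (Fintype.card ι) → Bool => P (τ ∘ e) := by
    intro τ i
    show K * P (_ ∘ e) ≤ P (_ ∘ e)
    rw [hup, hup]
    exact hd _ _
  obtain ⟨E, hE⟩ : ∃ E : (ι → Option κ) ≃ (Fin (Fintype.card ι) → Option κ),
      ∀ g, E g = g ∘ e.symm := ⟨e.arrowCongr (Equiv.refl _), fun g => rfl⟩
  obtain ⟨W, hW1, hW2⟩ := coupleK_fin hK hκ (Fintype.card ι) (fun _ τ => P (τ ∘ e))
    (∑ τ : Fin (Fintype.card ι) → Bool, P (τ ∘ e)) (Finset.sum_nonneg fun τ _ => h0 _)
    (fun _ τ => h0 _) (fun _ => hdec) (fun _ => rfl)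
  refine ⟨fun g => W (E g), fun g => hW1 _, fun a τ => ?_⟩
  have h1 := hW2 a (τ ∘ e.symm)
  have h2 : (τ ∘ e.symm) ∘ e = τ := by
    funext i
    simp
  rw [h2] at h1
  rw [← h1, ← Equiv.sum_comp E]
  refine Finset.sum_congr rfl fun g _ => ?_
  have h3 : fl (E g) a = τ ∘ e.symm ↔ fl g a = τ := by
    have h4 : fl (E g) a = fl g a ∘ e.symm := by
      rw [hE]
      rfl
    rw [h4]
    constructor
    · intro h
      funext i
      have := congrFun h (e i)
      simpa using this
    · intro h
      rw [h]
  simp only [h3]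

end StabF

end Vale.Agent.P372
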