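import Vale.Agent.P372.H795.LocDefs
import Vale.Agent.P372.BF.MsgDefs

open Matrix Kronecker
open scoped ComplexOrder

namespace Vale.Agent.P372

/-- The total effect `F` of Alice or the total effect `G` of Bob is at most a product `R` of code
projections on any number of copies and of positive operators on at most `N` copies, and if it is
replaced by `R` then the probability `tr (F ⊗ G) ρ^{⊗ n}` becomes at most `γ`. -/
def DominatedCodes {A B : Type} [Fintype A] [DecidableEq A] [Fintype B] [DecidableEq B]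
    (PA : Matrix A A ℂ → Prop) (PB : Matrix B B ℂ → Prop) {n : ℕ} (N : ℕ)
    (ρ : Matrix (A × B) (A × B) ℂ) (F : Matrix (Fin n → A) (Fin n → A) ℂ)
    (G : Matrix (Fin n → B) (Fin n → B) ℂ) (γ : ℝ) : Prop :=
  (∃ R, CodeBlocks PA N 0 R ∧ (R - F).PosSemidef ∧ ((R ⊗ₖ G) * tpow n ρ).trace.re ≤ γ) ∨
    ∃ R, CodeBlocks PB N 0 R ∧ (R - G).PosSemidef ∧ ((F ⊗ₖ R) * tpow n ρ).trace.re ≤ γ

/-- `CodeLOCC P N K C n W A T f g`: a protocol that is run after Bob has applied the Kraus operator
`W` to his `n` systems.  In a first phase Alice and Bob apply instruments and announce the results,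
in any order and adaptively; when this phase ends, Bob's accumulated Kraus operator `W` has a
product of code projections (on any number of systems) and of positive operators on at most `N`
systems as effect `Wᴴ W`.  In the second phase they run any protocol in which, for every reply
strategy of Alice, there are at most `C` different sequences of announcements of Bob. -/
inductive CodeLOCC {X : Type} [Fintype X] [DecidableEq X] (P : Matrix X X ℂ → Prop) (N : ℕ)
    (K : Type) [Fintype K] (C n : ℕ) :
    (W : Matrix (Fin n → X) (Fin n → X) ℂ) → (A T : Type) → (T → K → Matrix A A ℂ) →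
      (T → K → Matrix (Fin n → X) (Fin n → X) ℂ) → Prop
  | free {A T : Type} (W : Matrix (Fin n → X) (Fin n → X) ℂ) (hW : CodeBlocks P N 0 (Wᴴ * W))
      (f : T → K → Matrix A A ℂ) (g : T → K → Matrix (Fin n → X) (Fin n → X) ℂ)
      (h : LOCCm K C A (Fin n → X) T f g) : CodeLOCC P N K C n W A T f g
  | alice {A : Type} [DecidableEq A] (W : Matrix (Fin n → X) (Fin n → X) ℂ) (A' M R : Type)
      [Fintype A'] [Fintype M] [Fintype R] (V : M → R → Matrix A' A ℂ)
      (hV : ∑ m, ∑ r, (V m r)ᴴ * V m r = 1) (T : M → Type)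
      (f : ∀ m, T m → K → Matrix A' A' ℂ) (g : ∀ m, T m → K → Matrix (Fin n → X) (Fin n → X) ℂ)
      (h : ∀ m, CodeLOCC P N K C n W A' (T m) (f m) (g m)) :
      CodeLOCC P N K C n W A (Σ m, T m) (fun t k => ∑ r, (V t.1 r)ᴴ * f t.1 t.2 k * V t.1 r)
        (fun t k => g t.1 t.2 k)
  | bob {A : Type} (W : Matrix (Fin n → X) (Fin n → X) ℂ) (M : Type) [Fintype M]
      (V : M → Matrix (Fin n → X) (Fin n → X) ℂ) (hV : ∑ m, (V m)ᴴ * V m = 1) (T : M → Type)
      (f : ∀ m, T m → K → Matrix A A ℂ) (g : ∀ m, T m → K → Matrix (Fin n → X) (Fin n → X) ℂ)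
      (h : ∀ m, CodeLOCC P N K C n (V m * W) A (T m) (f m) (g m)) :
      CodeLOCC P N K C n W A (Σ m, T m) (fun t k => f t.1 t.2 k)
        (fun t k => (V t.1)ᴴ * g t.1 t.2 k * V t.1)

/-- The bounds for a state `ρ` with eigenvalues between `lo` and `hi` (only `hi / lo` matters), for
all purifications, all numbers `n` of copies and all protocols for `ℓ` key bits with error `ε`:
* if for every transcript the total effect of one party is, up to the factor `c`, a product of code
  projections on any number of copies, positive operators on at most `N` copies, one positive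
  operator on at most `M` copies and at most `S` locally product operators on any number of copies;
* if for every transcript the total effect of one party is at most a product of code projections on
  any number of copies and positive operators on at most `N` copies;
* if the protocol is as in `CodeLOCC`. -/
def CodeBounds {A B : Type} [Fintype A] [DecidableEq A] [Fintype B] [DecidableEq B]
    (PA : Matrix A A ℂ → Prop) (PB : Matrix B B ℂ → Prop) (ρ : Matrix (A × B) (A × B) ℂ)
    (lo hi : ℝ) : Prop :=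
  ∀ (E : Type) [Fintype E] [DecidableEq E] (Ψ : Matrix (A × B) E ℂ), Ψ * Ψᴴ = ρ →
    ∀ (n ℓ : ℕ) (T : Type) [Fintype T]
      (f : T → (Fin ℓ → Bool) → Matrix (Fin n → A) (Fin n → A) ℂ)
      (g : T → (Fin ℓ → Bool) → Matrix (Fin n → B) (Fin n → B) ℂ) (ε : ℝ),
      KeyError f g (copies n Ψ) ε →
      (LOCC (Fin ℓ → Bool) (Fin n → A) (Fin n → B) T f g →
        (∀ (N M S : ℕ) (α κ c : ℝ), hi ^ N ≤ 2 * lo ^ N → (S = 0 ∨ 8 * (hi - lo) ≤ α * lo) →
          1 ≤ κ → 0 < c →
          (∀ t, NearFilterBlocks PA N M S α κ c (∑ k, f t k) ∨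
            NearFilterBlocks PB N M S α κ c (∑ k, g t k)) →
          1 - ε ≤ c * (hi / lo) ^ M * (3 * κ ^ 2) ^ S * ((2 ^ ℓ)⁻¹ + ε)) ∧
        ∀ (N K : ℕ) (γ : T → ℝ), 0 < K → K * hi ≤ (K + 1) * lo →
          K * hi ^ N ≤ (K + 1) * lo ^ N →
          (∀ t, DominatedCodes PA PB N ρ (∑ k, f t k) (∑ k, g t k) (γ t)) →
          1 - ε ≤ (2 ^ ℓ)⁻¹ + ε + (∑ t, γ t) / (K + 1)) ∧
      ∀ N K C : ℕ, 0 < K → K * hi ≤ (K + 1) * lo → K * hi ^ N ≤ (K + 1) * lo ^ N →
        CodeLOCC PB N (Fin ℓ → Bool) C n 1 (Fin n → A) T f g →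
        1 - ε ≤ (2 ^ ℓ)⁻¹ + ε + C / (K + 1)

end Vale.Agent.P372
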