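import Vale.Agent.P372.StabF.KCouple
import Vale.Agent.P372.StabF.Code

open Matrix Kronecker
open scoped ComplexOrder MatrixOrder

set_option linter.unusedSectionVars false

namespace Vale.Agent.P372

namespace StabF

variable {A B X Y D D' : Type} [Fintype A] [DecidableEq A] [Fintype B] [DecidableEq B]
  [Fintype X] [DecidableEq X] [Fintype Y] [DecidableEq Y] [Fintype D] [DecidableEq D]
  [Fintype D'] [DecidableEq D']

/-- Commuting positive operators have a positive product. -/
theorem commute_posSemidef {M N : Matrix X X ℂ} (hM : M.PosSemidef) (hN : N.PosSemidef)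
    (h : Commute M N) : (M * N).PosSemidef := by
  obtain ⟨S, iS, Q, lam, hQ1, hQ2, hQ3, hQ4, hQ5⟩ := spec_one M hM.1
  have e1 : M * N = ∑ s, (lam s : ℂ) • (Q s * N * (Q s)ᴴ) := by
    calc M * N = M * (∑ s, Q s) * N := by rw [hQ3, Matrix.mul_one]
      _ = ∑ s, (M * Q s) * N := by rw [Matrix.mul_sum, Matrix.sum_mul]
      _ = _ := by
        refine Finset.sum_congr rfl fun s _ => ?_
        rw [hQ4, (hQ1 s).eq, Matrix.smul_mul]
        congr 1
        have h1 : Commute N (Q s) := hQ5 N h.symm s
        rw [Matrix.mul_assoc, h1.eq, ← Matrix.mul_assoc, hQ2]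
  rw [e1]
  refine posSemidef_sum _ fun s _ => ?_
  by_cases h0 : Q s = 0
  · rw [h0]
    simpa using PosSemidef.zero
  · exact (hN.mul_mul_conjTranspose_same _).smul
      (Complex.zero_le_real.mpr (lam_nonneg (hQ1 s) (hQ2 s) h0 hM (hQ4 s)))

/-- Positive operators whose blocks commute. -/
theorem pair_blk_posSemidef {F : Matrix (X × D) (X × D) ℂ} {G : Matrix (X × D') (X × D') ℂ}
    (hF : F.PosSemidef) (hG : G.PosSemidef)
    (hc : ∀ d d' e e', Commute (blk F d d') (blk G e e')) :
    (Matrix.of fun p q : X × (D × D') => (blk F p.2.1 q.2.1 * blk G p.2.2 q.2.2) p.1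
      q.1).PosSemidef := by
  have h1 := BF.ext_posSemidef (Z := X × (D × D')) (Y := D') hF (fun p => (p.1, p.2.1))
    (fun p => p.2.2)
  have h2 := BF.ext_posSemidef (Z := X × (D × D')) (Y := D) hG (fun p => (p.1, p.2.2))
    (fun p => p.2.1)
  have e1 : (Matrix.of fun p q : X × (D × D') => F (p.1, p.2.1) (q.1, q.2.1) *
      if p.2.2 = q.2.2 then 1 else 0) *
      (Matrix.of fun p q : X × (D × D') => G (p.1, p.2.2) (q.1, q.2.2) *
      if p.2.1 = q.2.1 then 1 else 0) =
      Matrix.of fun p q : X × (D × D') => (blk F p.2.1 q.2.1 * blk G p.2.2 q.2.2) p.1 q.1 := by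
    ext p q
    simp only [Matrix.mul_apply, Matrix.of_apply, Fintype.sum_prod_type, blk]
    refine Finset.sum_congr rfl fun z _ => ?_
    rw [Finset.sum_eq_single q.2.1]
    · rw [Finset.sum_eq_single p.2.2]
      · simp
      · intro e _ he
        simp [Ne.symm he]
      · simp
    · intro e _ he
      refine Finset.sum_eq_zero fun e' _ => ?_
      simp [he]
    · simp
  have e2 : (Matrix.of fun p q : X × (D × D') => G (p.1, p.2.2) (q.1, q.2.2) *
      if p.2.1 = q.2.1 then 1 else 0) *
      (Matrix.of fun p q : X × (D × D') => F (p.1, p.2.1) (q.1, q.2.1) *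
      if p.2.2 = q.2.2 then 1 else 0) =
      Matrix.of fun p q : X × (D × D') => (blk G p.2.2 q.2.2 * blk F p.2.1 q.2.1) p.1 q.1 := by
    ext p q
    simp only [Matrix.mul_apply, Matrix.of_apply, Fintype.sum_prod_type, blk]
    refine Finset.sum_congr rfl fun z _ => ?_
    rw [Finset.sum_eq_single p.2.1]
    · rw [Finset.sum_eq_single q.2.2]
      · simp
      · intro e _ he
        simp [he]
      · simp
    · intro e _ he
      refine Finset.sum_eq_zero fun e' _ => ?_
      simp [Ne.symm he]
    · simp
  have h3 := commute_posSemidef h1 h2 (by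
    show _ * _ = _ * _
    rw [e1, e2]
    ext p q
    rw [Matrix.of_apply, Matrix.of_apply, (hc _ _ _ _).eq])
  rwa [e1] at h3

/-- Ordered product of operators on `X` and on single copies of `D`. -/
def opk {k : ℕ} (F : Fin k → Matrix (X × D) (X × D) ℂ) :
    Matrix (X × (Fin k → D)) (X × (Fin k → D)) ℂ :=
  fun p q => (List.ofFn fun a => blk (F a) (p.2 a) (q.2 a)).prod p.1 q.1

theorem blk_opk {k : ℕ} (F : Fin k → Matrix (X × D) (X × D) ℂ) (d d' : Fin k → D) :
    blk (opk F) d d' = (List.ofFn fun a => blk (F a) (d a) (d' a)).prod := rfl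

theorem opk_posSemidef : ∀ {k : ℕ} (F : Fin k → Matrix (X × D) (X × D) ℂ),
    (∀ a, (F a).PosSemidef) →
    (∀ a b, a ≠ b → ∀ d d' e e', Commute (blk (F a) d d') (blk (F b) e e')) →
    (opk F).PosSemidef := by
  intro k
  induction k with
  | zero =>
    intro F _ _
    have h : opk F = (1 : Matrix X X ℂ).submatrix (fun p : X × (Fin 0 → D) => p.1)
        (fun p : X × (Fin 0 → D) => p.1) := by
      ext p q
      simp [opk]
    rw [h]
    exact PosSemidef.one.submatrix _
  | succ k ih =>
    intro F hF hc
    have h1 := ih (fun a => F a.succ) (fun a => hF _)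
      (fun a b hab => hc _ _ fun h => hab (Fin.succ_injective _ h))
    have h2 := pair_blk_posSemidef (hF 0) h1 (by
      intro d d' e e'
      rw [blk_opk]
      refine Commute.list_prod_right _ _ fun Z hZ => ?_
      obtain ⟨a, rfl⟩ := List.mem_ofFn.mp hZ
      exact hc 0 a.succ (Ne.symm (Fin.succ_ne_zero a)) _ _ _ _)
    have h3 := h2.submatrix (fun p : X × (Fin (k + 1) → D) => (p.1, (p.2 0, fun a => p.2 a.succ)))
    have e : (Matrix.of fun p q : X × (D × (Fin k → D)) => (blk (F 0) p.2.1 q.2.1 *
        blk (opk fun a : Fin k => F a.succ) p.2.2 q.2.2) p.1 q.1).submatrix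
        (fun p : X × (Fin (k + 1) → D) => (p.1, (p.2 0, fun a => p.2 a.succ)))
        (fun p : X × (Fin (k + 1) → D) => (p.1, (p.2 0, fun a => p.2 a.succ))) = opk F := by
      ext p q
      rw [Matrix.submatrix_apply, Matrix.of_apply, blk_opk, opk, List.ofFn_succ, List.prod_cons]
    rwa [e] at h3

/-- All copies except `a` traced out. -/
def mgk {k : ℕ} (a : Fin k) (M : Matrix (X × (Fin k → D)) (X × (Fin k → D)) ℂ) :
    Matrix (X × D) (X × D) ℂ :=
  fun p q => ∑ e : Fin k → D, if e a = p.2 then M (p.1, e) (q.1, Function.update e a q.2) else 0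

theorem blk_mgk {k : ℕ} (a : Fin k) (M : Matrix (X × (Fin k → D)) (X × (Fin k → D)) ℂ)
    (d d' : D) : blk (mgk a M) d d' =
      ∑ e : Fin k → D, if e a = d then blk M e (Function.update e a d') else 0 := by
  ext x x'
  rw [Matrix.sum_apply]
  simp only [blk, mgk]
  refine Finset.sum_congr rfl fun e _ => ?_
  split_ifs <;> rfl

theorem ofFn_sum {R : Type} [Semiring R] : ∀ {k : ℕ} (f : Fin k → D → R),
    ∑ e : Fin k → D, (List.ofFn fun b => f b (e b)).prod =
      (List.ofFn fun b => ∑ d, f b d).prod := by
  intro k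
  induction k with
  | zero =>
    intro f
    simp
  | succ k ih =>
    intro f
    rw [← Equiv.sum_comp (Fin.consEquiv fun _ => D), Fintype.sum_prod_type, List.ofFn_succ,
      List.prod_cons, ← ih, Finset.sum_mul]
    refine Finset.sum_congr rfl fun d _ => ?_
    rw [Finset.mul_sum]
    refine Finset.sum_congr rfl fun e _ => ?_
    rw [List.ofFn_succ, List.prod_cons]
    simp [Fin.consEquiv]

theorem mgk_opk {k : ℕ} (a : Fin k) (F : Fin k → Matrix (X × D) (X × D) ℂ) (d d' : D) :
    blk (mgk a (opk F)) d d' =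
      (List.ofFn fun b => if b = a then blk (F a) d d' else ptr (F b)).prod := by
  rw [blk_mgk]
  have e1 : ∀ e : Fin k → D, (if e a = d then blk (opk F) e (Function.update e a d') else 0) =
      (List.ofFn fun b => (fun b c => if b = a then (if c = d then blk (F a) d d' else 0) else
        blk (F b) c c) b (e b)).prod := by
    intro e
    by_cases h : e a = d
    · rw [if_pos h, blk_opk]
      congr 2
      funext b
      by_cases hb : b = a
      · subst hb
        simp [h]
      · simp [hb]
    · rw [if_neg h]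
      refine (List.prod_eq_zero ?_).symm
      rw [List.mem_ofFn]
      exact ⟨a, by simp [h]⟩
  rw [Finset.sum_congr rfl fun e _ => e1 e]
  refine (ofFn_sum fun b c => if b = a then (if c = d then blk (F a) d d' else 0) else
        blk (F b) c c).trans ?_
  congr 2
  funext b
  by_cases hb : b = a
  · simp [hb]
  · simp only [if_neg hb, ptr]

theorem mul_ofFn {R : Type} [Ring R] [Module ℂ R] [IsScalarTower ℂ R R] [SMulCommClass ℂ R R]
    {Q : R} : ∀ {k : ℕ} (w : Fin k → R) (z : Fin k → ℂ), (∀ b, Q * w b = z b • Q) →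
    Q * (List.ofFn w).prod = (∏ b, z b) • Q := by
  intro k
  induction k with
  | zero =>
    intro w z _
    simp
  | succ k ih =>
    intro w z h
    rw [List.ofFn_succ, List.prod_cons, ← mul_assoc, h 0, smul_mul_assoc,
      ih _ (fun b => z b.succ) (fun b => h b.succ), smul_smul, Fin.prod_univ_succ]

theorem mul_ofFn_one {R : Type} [Ring R] [Module ℂ R] [IsScalarTower ℂ R R]
    [SMulCommClass ℂ R R] {Q Z : R} (hQZ : Commute Q Z) : ∀ {k : ℕ} (a : Fin k) (w : Fin k → R)
    (z : Fin k → ℂ), (∀ b, Q * w b = z b • Q) →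
    Q * (List.ofFn fun b => if b = a then Z else w b).prod =
      (∏ b, if b = a then 1 else z b) • (Q * Z) := by
  intro k
  induction k with
  | zero =>
    intro a
    exact a.elim0
  | succ k ih =>
    intro a w z h
    rw [List.ofFn_succ, List.prod_cons, Fin.prod_univ_succ]
    refine Fin.cases ?_ (fun a => ?_) a
    · have e1 : (fun b : Fin k => if b.succ = (0 : Fin (k + 1)) then Z else w b.succ) =
          fun b => w b.succ := by
        funext b
        rw [if_neg (Fin.succ_ne_zero b)]
      have e2 : (∏ b : Fin k, if b.succ = (0 : Fin (k + 1)) then (1 : ℂ) else z b.succ) =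
          ∏ b : Fin k, z b.succ :=
        Finset.prod_congr rfl fun b _ => by rw [if_neg (Fin.succ_ne_zero b)]
      rw [e1, e2, if_pos rfl, if_pos rfl, ← mul_assoc, hQZ.eq, mul_assoc,
        mul_ofFn _ (fun b => z b.succ) (fun b => h b.succ), mul_smul_comm, one_mul]
    · have e1 : (fun b : Fin k => if b.succ = a.succ then Z else w b.succ) =
          fun b => if b = a then Z else w b.succ := by
        funext b
        simp only [Fin.succ_inj]
      have e2 : (∏ b : Fin k, if b.succ = a.succ then (1 : ℂ) else z b.succ) =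
          ∏ b : Fin k, if b = a then 1 else z b.succ :=
        Finset.prod_congr rfl fun b _ => by simp only [Fin.succ_inj]
      rw [e1, e2, if_neg (Ne.symm (Fin.succ_ne_zero a)), if_neg (Ne.symm (Fin.succ_ne_zero a)),
        ← mul_assoc, h 0, smul_mul_assoc, ih a _ (fun b => z b.succ) (fun b => h b.succ),
        smul_smul]

end StabF

end Vale.Agent.P372
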