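import Vale.Agent.P372.StabF.KKey
import Vale.Agent.P372.StabF.Block
import Vale.Agent.P372.BF.MultiFinal

open Matrix Kronecker
open scoped ComplexOrder MatrixOrder

set_option linter.unusedSectionVars false

namespace Vale.Agent.P372

namespace StabF

variable {A B E F : Type} [Fintype A] [DecidableEq A] [Fintype B] [DecidableEq B]
  [Fintype E] [DecidableEq E] [Fintype F] [DecidableEq F]

section blocks

variable {n m : ℕ} (π : Fin n → Fin m)

/-- Products over the blocks. -/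
def prodB (V : ∀ i, Matrix ({j // π j = i} → B) ({j // π j = i} → B) ℂ) :
    Matrix (Fin n → B) (Fin n → B) ℂ :=
  fun p q => ∏ i, V i (fun j => p j) (fun j => q j)

theorem prodB_mul (V W : ∀ i, Matrix ({j // π j = i} → B) ({j // π j = i} → B) ℂ) :
    prodB π V * prodB π W = prodB π fun i => V i * W i := by
  ext p q
  rw [Matrix.mul_apply]
  simp only [prodB, ← Finset.prod_mul_distrib, Matrix.mul_apply]
  exact BF.sum_blk π fun i y => V i (fun j => p j) y * W i y (fun j => q j)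

theorem prodB_conj (V : ∀ i, Matrix ({j // π j = i} → B) ({j // π j = i} → B) ℂ) :
    (prodB π V)ᴴ = prodB π fun i => (V i)ᴴ := by
  ext p q
  simp only [prodB, conjTranspose_apply, star_prod]

theorem ft_prodB (V : ∀ i, Matrix ({j // π j = i} → B) ({j // π j = i} → B) ℂ)
    (R : ∀ i, Matrix (({j // π j = i} → A) × ({j // π j = i} → B))
      (({j // π j = i} → A) × ({j // π j = i} → B)) ℂ) :
    ft (prodB π V) (BF.bprod π R) = BF.bprod π fun i => ft (V i) (R i) := by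
  ext p q
  simp only [ft, prodB, BF.bprod, star_prod, ← Finset.prod_mul_distrib]
  have e1 : ∀ y : Fin n → B, ∑ y' : Fin n → B, ∏ i, V i (fun j => p.2 j) (fun j => y j) *
      R i (fun j => p.1 j, fun j => y j) (fun j => q.1 j, fun j => y' j) *
      star (V i (fun j => q.2 j) fun j => y' j) =
      ∏ i, ∑ y', V i (fun j => p.2 j) (fun j => y j) *
      R i (fun j => p.1 j, fun j => y j) (fun j => q.1 j, y') *
      star (V i (fun j => q.2 j) y') := by
    intro y
    exact BF.sum_blk π fun i y' => V i (fun j => p.2 j) (fun j => y j) *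
      R i (fun j => p.1 j, fun j => y j) (fun j => q.1 j, y') *
      star (V i (fun j => q.2 j) y')
  simp only [e1]
  exact BF.sum_blk π fun i y => ∑ y', V i (fun j => p.2 j) y *
      R i (fun j => p.1 j, y) (fun j => q.1 j, y') *
      star (V i (fun j => q.2 j) y')

end blocks

/-- A filter relative to which the copies have a `(K + 1)`-fold extension after a projection. -/
def ExtBlock (K : ℕ) {ι : Type} [Fintype ι] [DecidableEq ι] (ρ : Matrix (A × B) (A × B) ℂ)
    (Q : Matrix (ι → B) (ι → B) ℂ) : Prop :=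
  ∃ V Q' : Matrix (ι → B) (ι → B) ℂ, Vᴴ = V ∧ V * V = V ∧ Q'.PosSemidef ∧ V * Q' = Q ∧
    Q' * V = Q ∧ ∃ L : Matrix ((ι → A) × (Fin (K + 1) → ι → B))
      ((ι → A) × (Fin (K + 1) → ι → B)) ℂ, BF.IsExtS (ft V (BF.cop ι ρ)) Q' L

theorem ft_one {X Y : Type} [Fintype X] [DecidableEq X] [Fintype Y] [DecidableEq Y]
    (M : Matrix (X × Y) (X × Y) ℂ) : ft (1 : Matrix Y Y ℂ) M = M := by
  rw [ft_eq, one_kronecker_one, conjTranspose_one, Matrix.one_mul, Matrix.mul_one]

theorem extBlock_of_extS {K : ℕ} {ι : Type} [Fintype ι] [DecidableEq ι]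
    {ρ : Matrix (A × B) (A × B) ℂ} {Q : Matrix (ι → B) (ι → B) ℂ} (hQ : Q.PosSemidef)
    (h : ∃ L : Matrix ((ι → A) × (Fin (K + 1) → ι → B)) ((ι → A) × (Fin (K + 1) → ι → B)) ℂ,
      BF.IsExtS (BF.cop ι ρ) Q L) : ExtBlock K ρ Q := by
  obtain ⟨L, hL⟩ := h
  refine ⟨1, Q, conjTranspose_one, Matrix.one_mul 1, hQ, Matrix.one_mul Q, Matrix.mul_one Q, L,
    ?_⟩
  rwa [ft_one]

/-- Codes. -/
theorem extBlock_code {K : ℕ} (hK : 0 < K) {ι : Type} [Fintype ι] [DecidableEq ι]
    {ρ : Matrix (A × B) (A × B) ℂ} {lo : ℝ} (hlo : 0 < lo) (h1 : (ρ - (lo : ℂ) • 1).PosSemidef)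
    (h2 : ((((K + 1) * lo : ℝ) : ℂ) • 1 - ((K : ℝ) : ℂ) • ρ).PosSemidef)
    {P : Matrix B B ℂ → Matrix B B ℂ → Prop} (hP : ∀ u w, P u w → Partner ρ u w)
    {Pi : Matrix (ι → B) (ι → B) ℂ} (hPi : IsCode P Pi) : ExtBlock K ρ Pi := by
  obtain ⟨S, hS⟩ : ∃ S, S = ρ - (lo : ℂ) • 1 := ⟨_, rfl⟩
  have hSp : S.PosSemidef := by rw [hS]; exact h1
  have hS' : ((lo : ℂ) • 1 - (K : ℂ) • S).PosSemidef := by
    have e : (lo : ℂ) • 1 - (K : ℂ) • S = (((K + 1) * lo : ℝ) : ℂ) • 1 - ((K : ℝ) : ℂ) • ρ := by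
      rw [hS, smul_sub, smul_smul]
      push_cast
      rw [add_mul, add_smul, one_mul]
      abel
    rw [e]
    exact h2
  have hsite : ∀ u w, P u w → ∃ u', IsSite S u' u w := by
    intro u w hu
    obtain ⟨u', hc, ⟨r, hr⟩, r', hr'⟩ := hP u w hu
    refine ⟨u', ⟨⟨r', by rw [ctr_one', hr']⟩, ⟨r - lo * r', ?_⟩, ?_⟩⟩
    · rw [hS, ctr_comb, hr, hr', smul_smul, sub_smul]
    · rw [hS]
      exact hc.sub_right ((Commute.one_right _).smul_right _)
  obtain ⟨Ω, hΩ, hΩ1⟩ := exists_extK hK hSp hlo.le hS' Pi (code_comm (α := lo) hsite hPi)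
  have hsum : ∑ τ : ι → Bool, flag S lo τ = BF.cop ι ρ := by
    rw [sum_flag]
    have e : (lo : ℂ) • 1 + S = ρ := by
      rw [hS]
      abel
    rw [e]
    rfl
  rw [hsum] at hΩ1
  exact ⟨Pi, 1, hPi.1, hPi.2.1, PosSemidef.one, Matrix.mul_one _, Matrix.one_mul _,
    extS_of_mgk hΩ hΩ1⟩

/-- The bound for one transcript. -/
theorem side_bound {κ : Type} [Fintype κ] [DecidableEq κ] {n K : ℕ}
    {ρ : Matrix (A × B) (A × B) ℂ} {γ : ℝ}
    (Φ : Matrix ((Fin n → A) × (Fin n → B)) F ℂ) (hΦ : Φ * Φᴴ = BF.cop (Fin n) ρ)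
    {f : κ → Matrix (Fin n → A) (Fin n → A) ℂ} {g : κ → Matrix (Fin n → B) (Fin n → B) ℂ}
    (hf : ∀ k, (f k).PosSemidef) (hg : ∀ k, (g k).PosSemidef)
    {P : Matrix (Fin n → B) (Fin n → B) ℂ} {m : ℕ} {π : Fin n → Fin m}
    {Q : ∀ i, Matrix ({j // π j = i} → B) ({j // π j = i} → B) ℂ}
    (hQ : ∀ i, (Q i).PosSemidef) (hPQ : ∀ p q, P p q = ∏ i, Q i (fun j => p j) (fun j => q j))
    (hx : ∀ i, (Q i).trace ≠ 0 → ExtBlock K ρ (Q i))
    (hP : (P - ∑ k, g k).PosSemidef)
    (hγ : (((∑ k, f k) ⊗ₖ P) * BF.cop (Fin n) ρ).trace.re ≤ γ) {σ : Matrix F F ℂ}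
    (hσ : σ.PosSemidef) :
    ∑ k, (eve Φ (f k) (g k)).trace.re ≤ (Fintype.card κ : ℝ)⁻¹ * σ.trace.re +
      ∑ k, ∑ l, traceNorm (eve Φ (f k) (g l) - if k = l then ((Fintype.card κ : ℂ)⁻¹) • σ
        else 0) + γ / (K + 1) := by
  have hK : (0 : ℝ) < K + 1 := by positivity
  have hnn : 0 ≤ (Fintype.card κ : ℝ)⁻¹ * σ.trace.re +
      ∑ k, ∑ l, traceNorm (eve Φ (f k) (g l) - if k = l then ((Fintype.card κ : ℂ)⁻¹) • σ
        else 0) := by
    refine add_nonneg (mul_nonneg (by positivity) (Lim.re_tr_nonneg hσ)) ?_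
    exact Finset.sum_nonneg fun k _ => Finset.sum_nonneg fun l _ => traceNorm_nonneg _
  by_cases h0 : ∃ i, (Q i).trace = 0
  · obtain ⟨i, hi⟩ := h0
    have hQi : Q i = 0 := (hQ i).trace_eq_zero_iff.mp hi
    have hP0 : P = 0 := by
      ext p q
      rw [hPQ, Matrix.zero_apply]
      exact Finset.prod_eq_zero (Finset.mem_univ i) (by rw [hQi, Matrix.zero_apply])
    have hG : (∑ k, g k).PosSemidef := posSemidef_sum _ fun k _ => hg k
    have hG0 : ∑ k, g k = 0 := by
      rw [hP0, zero_sub] at hP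
      have h3 := hP.trace_nonneg
      rw [trace_neg] at h3
      exact hG.trace_eq_zero_iff.mp (le_antisymm (neg_nonneg.mp h3) hG.trace_nonneg)
    have h3 : ∀ k, g k = 0 := BF.sum_zero_of_posSemidef hg hG0
    have h4 : ∑ k, (eve Φ (f k) (g k)).trace.re = 0 := by
      refine Finset.sum_eq_zero fun k _ => ?_
      rw [h3, eve_zero_right, trace_zero, Complex.zero_re]
    have h5 : 0 ≤ γ := by
      rw [hP0] at hγ
      have h6 : ((∑ k, f k) ⊗ₖ (0 : Matrix (Fin n → B) (Fin n → B) ℂ)) = 0 := by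
        ext p q
        simp only [kroneckerMap_apply, Matrix.zero_apply, mul_zero]
      rw [h6, Matrix.zero_mul, trace_zero, Complex.zero_re] at hγ
      exact hγ
    rw [h4]
    exact add_nonneg hnn (div_nonneg h5 hK.le)
  · push Not at h0
    choose V Q' hV1 hV2 hQ' hVQ hQV L hL using fun i => hx i (h0 i)
    obtain ⟨W, hW⟩ : ∃ W, W = prodB π V := ⟨_, rfl⟩
    obtain ⟨P', hP'⟩ : ∃ P', P' = prodB π Q' := ⟨_, rfl⟩
    have hW1 : Wᴴ = W := by
      rw [hW, prodB_conj]
      congr 1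
      funext i
      exact hV1 i
    have hW2 : W * W = W := by
      rw [hW, prodB_mul]
      congr 1
      funext i
      exact hV2 i
    have hPe : P = prodB π Q := by
      ext p q
      exact hPQ p q
    have hWP : W * P' = P := by
      rw [hW, hP', prodB_mul, hPe]
      congr 1
      funext i
      exact hVQ i
    have hPW : P' * W = P := by
      rw [hW, hP', prodB_mul, hPe]
      congr 1
      funext i
      exact hQV i
    have hP'p : P'.PosSemidef := by
      rw [hP']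
      exact (BF.piD_posSemidef hQ').submatrix
        (fun (p : Fin n → B) (i : Fin m) => ((fun j => p j) : {j // π j = i} → B))
    obtain ⟨L', hL'⟩ : ∃ L' : Matrix ((Fin n → A) × (Fin (K + 1) → Fin n → B))
        ((Fin n → A) × (Fin (K + 1) → Fin n → B)) ℂ,
        BF.IsExtS (ft W (BF.cop (Fin n) ρ)) P' L' := by
      rw [hW, BF.cop_eq_bprod π ρ, ft_prodB]
      exact BF.extS_blocks π (fun i => ⟨L i, hL i⟩) (fun p q => by rw [hP']; rfl)
    -- Bob's effects live on the range of `W`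
    have hG : (∑ k, g k).PosSemidef := posSemidef_sum _ fun k _ => hg k
    have hw : (1 - W)ᴴ = 1 - W := by rw [conjTranspose_sub, conjTranspose_one, hW1]
    have hgW : ∀ k, W * g k = g k := by
      intro k
      have h3 : (1 - W) * P = 0 := by
        rw [← hWP, ← Matrix.mul_assoc, Matrix.sub_mul, Matrix.one_mul, hW2, sub_self,
          Matrix.zero_mul]
      have h4 : (P - g k).PosSemidef := by
        have h5 : P - g k = (P - ∑ l, g l) + ∑ l ∈ Finset.univ.erase k, g l := by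
          rw [← Finset.add_sum_erase _ _ (Finset.mem_univ k)]
          abel
        rw [h5]
        exact hP.add (posSemidef_sum _ fun l _ => hg l)
      have h6 := h4.mul_mul_conjTranspose_same (1 - W)
      have h7 : (1 - W) * (P - g k) * (1 - W)ᴴ = -((1 - W) * g k * (1 - W)ᴴ) := by
        rw [Matrix.mul_sub, h3, zero_sub, Matrix.neg_mul]
      rw [h7] at h6
      have h8 := (hg k).mul_mul_conjTranspose_same (1 - W)
      have h9 := h6.trace_nonneg
      rw [trace_neg] at h9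
      have h10 := mul_eq_zero_of_conj (hg k)
        (h8.trace_eq_zero_iff.mp (le_antisymm (neg_nonneg.mp h9) h8.trace_nonneg))
      rw [Matrix.sub_mul, Matrix.one_mul, sub_eq_zero] at h10
      exact h10.symm
    have hgW' : ∀ k, g k * W = g k := by
      intro k
      have := congrArg conjTranspose (hgW k)
      rwa [conjTranspose_mul, hW1, (hg k).1.eq] at this
    have hP'G : (P' - ∑ k, g k).PosSemidef := by
      have h3 : P' - ∑ k, g k = (1 - W) * P' * (1 - W)ᴴ + (P - ∑ k, g k) := by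
        rw [hw, Matrix.sub_mul, Matrix.one_mul, hWP, Matrix.mul_sub, Matrix.mul_one,
          Matrix.sub_mul, hPW]
        have h4 : P * W = P := by rw [← hWP, Matrix.mul_assoc, hPW, ← hWP, ← Matrix.mul_assoc, hW2]
        rw [h4]
        abel
      rw [h3]
      exact (hP'p.mul_mul_conjTranspose_same _).add hP
    obtain ⟨Φ', hΦ'⟩ : ∃ Φ' : Matrix ((Fin n → A) × (Fin n → B)) F ℂ,
        Φ' = ((1 : Matrix (Fin n → A) (Fin n → A) ℂ) ⊗ₖ W) * Φ := ⟨_, rfl⟩
    have hΦΦ : Φ' * Φ'ᴴ = ft W (BF.cop (Fin n) ρ) := by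
      rw [ft_eq, hΦ', conjTranspose_mul, ← hΦ]
      simp only [Matrix.mul_assoc]
    have h1W : ((1 : Matrix (Fin n → A) (Fin n → A) ℂ) ⊗ₖ W)ᴴ = 1 ⊗ₖ W := by
      rw [conjTranspose_kronecker, conjTranspose_one, hW1]
    have heve : ∀ k l, eve Φ' (f k) (g l) = eve Φ (f k) (g l) := by
      intro k l
      rw [BF.eve_eq', BF.eve_eq', hΦ', conjTranspose_mul, h1W]
      congr 1
      calc Φᴴ * ((1 : Matrix (Fin n → A) (Fin n → A) ℂ) ⊗ₖ W) * (f k ⊗ₖ g l) *
            (((1 : Matrix (Fin n → A) (Fin n → A) ℂ) ⊗ₖ W) * Φ)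
          = Φᴴ * (((1 : Matrix (Fin n → A) (Fin n → A) ℂ) ⊗ₖ W) * (f k ⊗ₖ g l) *
            ((1 : Matrix (Fin n → A) (Fin n → A) ℂ) ⊗ₖ W)) * Φ := by
            simp only [Matrix.mul_assoc]
        _ = _ := by
            rw [← mul_kronecker_mul, ← mul_kronecker_mul, Matrix.one_mul, Matrix.mul_one, hgW,
              hgW']
    have h3 := multi_bound Φ' hf hg hP'G (by rw [hΦΦ]; exact hL') hσ
    have h4 : (((∑ k, f k) ⊗ₖ P') * (Φ' * Φ'ᴴ)).trace.re ≤ γ := by
      refine le_trans (le_of_eq ?_) hγ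
      congr 1
      rw [hΦΦ, ft_eq, h1W, ← Matrix.mul_assoc, trace_mul_comm, ← Matrix.mul_assoc,
        ← Matrix.mul_assoc, ← mul_kronecker_mul, ← mul_kronecker_mul, Matrix.one_mul,
        Matrix.mul_one]
      have h5 : W * P' * W = P := by
        rw [hWP, ← hPW, Matrix.mul_assoc, hW2]
      rw [h5]
    simp only [heve] at h3
    exact h3.trans (add_le_add le_rfl (div_le_div_of_nonneg_right h4 hK.le))

end StabF

end Vale.Agent.P372
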