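import Vale.Agent.P372.StabF.KDefs
import Vale.Agent.P372.StabF.KSide
import Vale.Agent.P372.H795.Final
import Vale.Agent.P372.BF.Msgs

open Matrix Kronecker
open scoped ComplexOrder MatrixOrder

set_option linter.unusedSectionVars false

namespace Vale.Agent.P372

namespace StabF

open BF (cop cop_low cop_high low_bound)

variable {A B E F : Type} [Fintype A] [DecidableEq A] [Fintype B] [DecidableEq B]
  [Fintype E] [DecidableEq E] [Fintype F] [DecidableEq F]

theorem tw_tens {ι : Type} [Fintype ι] [DecidableEq ι] (b : Bool) (u : ι → Matrix B B ℂ) :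
    H795.tw b (tens u) = tens fun i => H795.tw b (u i) := by
  cases b
  · exact tens_conjTranspose u
  · rfl

/-- Code projections are codes. -/
theorem isCode_of_codeProj {ι : Type} [Fintype ι] [DecidableEq ι] {b : Bool}
    {P : Matrix B B ℂ → Prop} (hu : ∀ u, P u → uᴴ * u = 1) {Q : Matrix (ι → B) (ι → B) ℂ}
    (hQ : CodeProj P Q) (h0 : Q ≠ 0) : IsCode (fun u w => P u ∧ w = H795.tw b u) Q := by
  obtain ⟨h1, h2, h3⟩ := hQ
  refine ⟨h1, h2, Submodule.span_mono ?_ h3⟩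
  rintro h ⟨u, hPu, hh, χ, hχ⟩
  have e : h = tens u := by
    ext p q
    exact hh p q
  have hunit : (tens u)ᴴ * tens u = 1 := by
    rw [tens_conjTranspose, tens_mul]
    have : (fun i => (u i)ᴴ * u i) = fun _ : ι => (1 : Matrix B B ℂ) :=
      funext fun i => hu _ (hPu i)
    rw [this, tens_one]
  rw [e] at hχ
  rcases H795.scalar_on h1 h2 hunit hχ b with h4 | ⟨x, hx, hx1, hx2⟩
  · exact absurd h4 h0
  · refine ⟨u, fun i => H795.tw b (u i), fun i => ⟨hPu i, rfl⟩, e, x, hx, ?_, ?_⟩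
    · rw [← tw_tens]
      exact hx1
    · rw [← tw_tens]
      exact hx2

theorem extBlock_codeProj {K : ℕ} (hK : 0 < K) {ι : Type} [Fintype ι] [DecidableEq ι]
    {ρ : Matrix (A × B) (A × B) ℂ} {lo : ℝ} (hlo : 0 < lo) (h1 : (ρ - (lo : ℂ) • 1).PosSemidef)
    (h2 : ((((K + 1) * lo : ℝ) : ℂ) • 1 - ((K : ℝ) : ℂ) • ρ).PosSemidef) {b : Bool}
    {P : Matrix B B ℂ → Prop} (hP : H795.Comp b ρ P) {Q : Matrix (ι → B) (ι → B) ℂ}
    (hQ : CodeProj P Q) (h0 : Q.trace ≠ 0) : ExtBlock K ρ Q := by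
  refine extBlock_code hK hlo h1 h2 (P := fun u w => P u ∧ w = H795.tw b u) ?_
    (isCode_of_codeProj (fun u hu => (hP u hu).1) hQ fun h => h0 (by rw [h, trace_zero]))
  rintro u w ⟨hu, rfl⟩
  obtain ⟨-, u', hr, hr', hc⟩ := hP u hu
  exact ⟨u', hc, hr', hr⟩

/-- Any filter on few copies. -/
theorem extBlock_small {K N : ℕ} {ι : Type} [Fintype ι] [DecidableEq ι]
    {ρ : Matrix (A × B) (A × B) ℂ} {lo hi : ℝ} (hlo : 0 < lo) (hlohi : lo ≤ hi)
    (h1 : (ρ - (lo : ℂ) • 1).PosSemidef) (h2 : ((hi : ℂ) • 1 - ρ).PosSemidef)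
    (hN : K * hi ^ N ≤ (K + 1) * lo ^ N) (hcard : Fintype.card ι ≤ N)
    {Q : Matrix (ι → B) (ι → B) ℂ} (hQ : Q.PosSemidef) (h0 : Q.trace ≠ 0) : ExtBlock K ρ Q := by
  have hρ : ρ.PosSemidef := by
    have h4 : ρ = (ρ - (lo : ℂ) • 1) + (lo : ℂ) • (1 : Matrix _ _ ℂ) := by abel
    rw [h4]
    exact h1.add (PosSemidef.one.smul (by exact_mod_cast hlo.le))
  have hhi : 0 < hi := hlo.trans_le hlohi
  have hpow : K * hi ^ Fintype.card ι ≤ (K + 1) * lo ^ Fintype.card ι := by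
    obtain ⟨r, hr⟩ := Nat.exists_eq_add_of_le hcard
    rw [hr, pow_add, pow_add] at hN
    have h3 : lo ^ r ≤ hi ^ r := pow_le_pow_left₀ hlo.le hlohi r
    have h4 : 0 < lo ^ r := pow_pos hlo r
    have h5 : 0 ≤ K * hi ^ Fintype.card ι := mul_nonneg (Nat.cast_nonneg K) (pow_pos hhi _).le
    by_contra hcon
    push Not at hcon
    have h6 : (K + 1) * (lo ^ Fintype.card ι * lo ^ r) <
        K * (hi ^ Fintype.card ι * hi ^ r) := by
      calc (K + 1) * (lo ^ Fintype.card ι * lo ^ r)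
          = ((K + 1) * lo ^ Fintype.card ι) * lo ^ r := by ring
        _ < (K * hi ^ Fintype.card ι) * lo ^ r := mul_lt_mul_of_pos_right hcon h4
        _ ≤ (K * hi ^ Fintype.card ι) * hi ^ r := mul_le_mul_of_nonneg_left h3 h5
        _ = _ := by ring
    linarith
  refine extBlock_of_extS hQ (BF.exists_extS (cop_low ι hlo.le h1) ?_ hQ h0)
  have h7 := (cop_high ι hρ h2).smul
    (Complex.zero_le_real.mpr (Nat.cast_nonneg K) : (0 : ℂ) ≤ ((K : ℝ) : ℂ))
  have h8 : ((((K + 1) * lo ^ Fintype.card ι : ℝ) : ℂ) • 1 -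
      ((K : ℝ) : ℂ) • cop ι ρ) =
      ((K : ℝ) : ℂ) • (((hi ^ Fintype.card ι : ℝ) : ℂ) • 1 -
      cop ι ρ) + ((((K + 1) * lo ^ Fintype.card ι -
        K * hi ^ Fintype.card ι : ℝ) : ℂ) • (1 : Matrix _ _ ℂ)) := by
    rw [Complex.ofReal_sub, sub_smul, smul_sub, smul_smul, ← Complex.ofReal_mul]
    abel
  rw [h8]
  exact h7.add (PosSemidef.one.smul (by exact_mod_cast sub_nonneg.mpr hpow))

/-- The bound for one transcript. -/
theorem code_side {κ : Type} [Fintype κ] [DecidableEq κ] {n N K : ℕ} (hK : 0 < K)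
    {ρ : Matrix (A × B) (A × B) ℂ} {lo hi γ : ℝ} {b : Bool} {PB : Matrix B B ℂ → Prop}
    (hPB : H795.Comp b ρ PB) (h12 : K * hi ≤ (K + 1) * lo)
    (hlo : 0 < lo) (hlohi : lo ≤ hi) (h1 : (ρ - (lo : ℂ) • 1).PosSemidef)
    (h2 : ((hi : ℂ) • 1 - ρ).PosSemidef) (hN : K * hi ^ N ≤ (K + 1) * lo ^ N)
    (Φ : Matrix ((Fin n → A) × (Fin n → B)) F ℂ) (hΦ : Φ * Φᴴ = cop (Fin n) ρ)
    {f : κ → Matrix (Fin n → A) (Fin n → A) ℂ} {g : κ → Matrix (Fin n → B) (Fin n → B) ℂ}
    (hf : ∀ k, (f k).PosSemidef) (hg : ∀ k, (g k).PosSemidef)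
    {P : Matrix (Fin n → B) (Fin n → B) ℂ} (hB : CodeBlocks PB N 0 P)
    (hP : (P - ∑ k, g k).PosSemidef)
    (hγ : (((∑ k, f k) ⊗ₖ P) * cop (Fin n) ρ).trace.re ≤ γ) {σ : Matrix F F ℂ}
    (hσ : σ.PosSemidef) :
    ∑ k, (eve Φ (f k) (g k)).trace.re ≤ (Fintype.card κ : ℝ)⁻¹ * σ.trace.re +
      ∑ k, ∑ l, traceNorm (eve Φ (f k) (g l) - if k = l then ((Fintype.card κ : ℂ)⁻¹) • σ
        else 0) + γ / (K + 1) := by
  obtain ⟨m, π, Q, hc0, hcN, hQ, hPQ⟩ := hB
  refine side_bound Φ hΦ hf hg hQ hPQ (fun i h0 => ?_) hP hγ hσ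
  have hsmall : Fintype.card {j // π j = i} ≤ N → ExtBlock K ρ (Q i) := fun hcard =>
    extBlock_small hlo hlohi h1 h2 hN hcard (hQ i) h0
  by_cases hi0 : i = 0
  · subst hi0
    exact hsmall (hc0.trans (Nat.zero_le N))
  · rcases hcN i hi0 with h3 | h3
    · exact hsmall h3
    · refine extBlock_codeProj hK hlo h1 ?_ hPB h3 h0
      have h7 := h2.smul
        (Complex.zero_le_real.mpr (Nat.cast_nonneg K) : (0 : ℂ) ≤ ((K : ℝ) : ℂ))
      have h8 : ((((K + 1) * lo : ℝ) : ℂ) • 1 - ((K : ℝ) : ℂ) • ρ) =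
          ((K : ℝ) : ℂ) • ((hi : ℂ) • 1 - ρ) + ((((K + 1) * lo - K * hi : ℝ) : ℂ) •
            (1 : Matrix _ _ ℂ)) := by
        rw [Complex.ofReal_sub, sub_smul, smul_sub, smul_smul, ← Complex.ofReal_mul]
        abel
      rw [h8]
      exact h7.add (PosSemidef.one.smul (by exact_mod_cast sub_nonneg.mpr h12))

/-- States close to the maximally mixed state: no key if the total effects of one party are
dominated by products over blocks with a small total weight. -/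
theorem multi_codes {ρ : Matrix (A × B) (A × B) ℂ} {lo hi : ℝ} {N K : ℕ} (hK : 0 < K)
    {b b' : Bool} {PA : Matrix A A ℂ → Prop} {PB : Matrix B B ℂ → Prop}
    (hPA : H795.Comp b (ρ.submatrix (Prod.swap : B × A → A × B) Prod.swap) PA)
    (hPB : H795.Comp b' ρ PB) (h12 : K * hi ≤ (K + 1) * lo)
    (htr : ρ.trace = 1) (hlo : 0 < lo) (h1 : (ρ - (lo : ℂ) • 1).PosSemidef)
    (h2 : ((hi : ℂ) • 1 - ρ).PosSemidef) (hN : K * hi ^ N ≤ (K + 1) * lo ^ N)
    (Ψ : Matrix (A × B) E ℂ) (hΨ : Ψ * Ψᴴ = ρ) (n ℓ : ℕ) (T : Type)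
    [Fintype T] (f : T → (Fin ℓ → Bool) → Matrix (Fin n → A) (Fin n → A) ℂ)
    (g : T → (Fin ℓ → Bool) → Matrix (Fin n → B) (Fin n → B) ℂ) (γ : T → ℝ) (ε : ℝ)
    (hL : LOCC (Fin ℓ → Bool) (Fin n → A) (Fin n → B) T f g)
    (hprod : ∀ t, DominatedCodes PA PB N ρ (∑ k, f t k) (∑ k, g t k) (γ t))
    (herr : KeyError f g (copies n Ψ) ε) :
    1 - ε ≤ (2 ^ ℓ)⁻¹ + ε + (∑ t, γ t) / (K + 1) := by
  have hne : Nonempty (A × B) := by
    by_contra hcon
    rw [not_nonempty_iff] at hcon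
    rw [Matrix.trace, Finset.univ_eq_empty, Finset.sum_empty] at htr
    exact zero_ne_one htr
  have hlohi : lo ≤ hi := by
    obtain ⟨p⟩ := hne
    have h3 := (h1.add h2).diag_nonneg (i := p)
    have h4 : ((ρ - (lo : ℂ) • 1) + ((hi : ℂ) • 1 - ρ)) p p = ((hi - lo : ℝ) : ℂ) := by
      simp only [Matrix.add_apply, Matrix.sub_apply, Matrix.smul_apply, Matrix.one_apply_eq,
        smul_eq_mul]
      push_cast
      ring
    rw [h4, Complex.zero_le_real] at h3
    linarith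
  have hW : copies n Ψ * (copies n Ψ)ᴴ = cop (Fin n) ρ := by
    rw [copies_mul, hΨ]
    rfl
  have htp : tpow n ρ = cop (Fin n) ρ := rfl
  obtain ⟨hf, hg⟩ := Lim.locc_psd hL
  have hρ' : (ρ.submatrix (Prod.swap : B × A → A × B) Prod.swap - (lo : ℂ) • 1).PosSemidef := by
    have h3 := h1.submatrix (Prod.swap : B × A → A × B)
    have h4 : (ρ - (lo : ℂ) • 1).submatrix (Prod.swap : B × A → A × B) Prod.swap =
        ρ.submatrix Prod.swap Prod.swap - (lo : ℂ) • 1 := by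
      ext p q
      simp only [submatrix_apply, Matrix.sub_apply, Matrix.smul_apply, Matrix.one_apply,
        Prod.swap_injective.eq_iff]
    rwa [h4] at h3
  have hρ'' : ((hi : ℂ) • 1 - ρ.submatrix (Prod.swap : B × A → A × B)
      Prod.swap).PosSemidef := by
    have h3 := h2.submatrix (Prod.swap : B × A → A × B)
    have h4 : ((hi : ℂ) • 1 - ρ).submatrix (Prod.swap : B × A → A × B) Prod.swap =
        (hi : ℂ) • 1 - ρ.submatrix Prod.swap Prod.swap := by
      ext p q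
      simp only [submatrix_apply, Matrix.sub_apply, Matrix.smul_apply, Matrix.one_apply,
        Prod.swap_injective.eq_iff]
    rwa [h4] at h3
  obtain ⟨σ, hσ, hσ1, hsum⟩ := herr
  obtain ⟨e, he⟩ : ∃ e : T → ℝ, ∀ t, e t = ∑ k, ∑ l, traceNorm (eve (copies n Ψ) (f t k)
      (g t l) - if k = l then ((Fintype.card (Fin ℓ → Bool) : ℂ)⁻¹) • σ t else 0) :=
    ⟨_, fun _ => rfl⟩
  have hbound : ∀ t, ∑ k, (eve (copies n Ψ) (f t k) (g t k)).trace.re ≤
      (Fintype.card (Fin ℓ → Bool) : ℝ)⁻¹ * (σ t).trace.re + e t + γ t / (K + 1) := by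
    intro t
    rcases hprod t with ⟨P, hB, hP, hγ⟩ | ⟨P, hB, hP, hγ⟩
    · obtain ⟨Φ, hΦd⟩ : ∃ Φ : Matrix ((Fin n → B) × (Fin n → A)) (Fin n → E) ℂ,
          Φ = (copies n Ψ).submatrix Prod.swap id := ⟨_, rfl⟩
      have hsw : ∀ (V : Matrix (Fin n → A) (Fin n → A) ℂ) (W : Matrix (Fin n → B) (Fin n → B) ℂ),
          eve (copies n Ψ) V W = eve Φ W V := by
        intro V W
        ext e e'
        rw [hΦd]
        simp only [eve, Matrix.submatrix_apply, id_eq]
        rw [← Equiv.sum_comp (Equiv.prodComm (Fin n → B) (Fin n → A))]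
        refine Finset.sum_congr rfl fun p _ => ?_
        rw [← Equiv.sum_comp (Equiv.prodComm (Fin n → B) (Fin n → A))]
        refine Finset.sum_congr rfl fun q _ => ?_
        simp only [Equiv.prodComm_apply, Prod.swap]
        ring
      have hR : Φ * Φᴴ = cop (Fin n) (ρ.submatrix (Prod.swap : B × A → A × B) Prod.swap) := by
        have h5 : Φ * Φᴴ = (copies n Ψ * (copies n Ψ)ᴴ).submatrix
            (Prod.swap : (Fin n → B) × (Fin n → A) → (Fin n → A) × (Fin n → B)) Prod.swap := by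
          rw [hΦd]
          ext p q
          simp only [Matrix.mul_apply, conjTranspose_apply, Matrix.submatrix_apply, id_eq]
        rw [h5, hW]
        rfl
      have hγ' : (((∑ k, g t k) ⊗ₖ P) * cop (Fin n)
          (ρ.submatrix (Prod.swap : B × A → A × B) Prod.swap)).trace.re ≤ γ t := by
        refine le_trans (le_of_eq ?_) hγ
        congr 1
        rw [htp]
        simp only [Matrix.trace, Matrix.diag, Matrix.mul_apply, kroneckerMap_apply]
        rw [← Equiv.sum_comp (Equiv.prodComm (Fin n → B) (Fin n → A))]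
        refine Finset.sum_congr rfl fun p _ => ?_
        rw [← Equiv.sum_comp (Equiv.prodComm (Fin n → B) (Fin n → A))]
        refine Finset.sum_congr rfl fun q _ => ?_
        simp only [Equiv.prodComm_apply, Prod.swap, cop, Matrix.submatrix_apply]
        ring
      have h6 := code_side hK hPA h12 hlo hlohi hρ' hρ'' hN Φ hR (hg t) (hf t) hB hP hγ' (hσ t)
      have e1 : ∀ k l, eve (copies n Ψ) (f t k) (g t l) = eve Φ (g t l) (f t k) :=
        fun k l => hsw _ _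
      have e2 : e t = ∑ k, ∑ l, traceNorm (eve Φ (g t k) (f t l) -
          if k = l then ((Fintype.card (Fin ℓ → Bool) : ℂ)⁻¹) • σ t else 0) := by
        rw [he, Finset.sum_comm]
        refine Finset.sum_congr rfl fun k _ => Finset.sum_congr rfl fun l _ => ?_
        rw [e1]
        by_cases hkl : k = l
        · rw [if_pos hkl, if_pos hkl.symm]
        · rw [if_neg hkl, if_neg (Ne.symm hkl)]
      rw [e2]
      simp only [e1]
      exact h6
    · rw [he]
      exact code_side hK hPB h12 hlo hlohi h1 h2 hN (copies n Ψ) hW (hf t) (hg t) hB hP hγ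
        (hσ t)
  have hlow : ∀ t, (σ t).trace.re - e t ≤ ∑ k, (eve (copies n Ψ) (f t k) (g t k)).trace.re := by
    intro t
    rw [he]
    exact low_bound (copies n Ψ) (f t) (g t) (σ t)
  have hσ1' : ∑ t, (σ t).trace.re = 1 := by
    rw [← Complex.re_sum, hσ1, Complex.one_re]
  have hsum' : ∑ t, e t ≤ ε := by simpa only [he] using hsum
  have hcard : (Fintype.card (Fin ℓ → Bool) : ℝ) = 2 ^ ℓ := by simp
  have e1 : 1 - ∑ t, e t ≤ (2 ^ ℓ)⁻¹ + ∑ t, e t + (∑ t, γ t) / (K + 1) := by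
    calc 1 - ∑ t, e t = ∑ t, ((σ t).trace.re - e t) := by rw [Finset.sum_sub_distrib, hσ1']
      _ ≤ ∑ t, ∑ k, (eve (copies n Ψ) (f t k) (g t k)).trace.re :=
          Finset.sum_le_sum fun t _ => hlow t
      _ ≤ ∑ t, ((Fintype.card (Fin ℓ → Bool) : ℝ)⁻¹ * (σ t).trace.re + e t + γ t / (K + 1)) :=
          Finset.sum_le_sum fun t _ => hbound t
      _ = _ := by
        rw [Finset.sum_add_distrib, Finset.sum_add_distrib, ← Finset.mul_sum, hσ1', mul_one,
          hcard, Finset.sum_div]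
  linarith

end StabF

end Vale.Agent.P372
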