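import Vale.Agent.P372.StabF.KSym
import Vale.Agent.P372.StabF.Rel

open Matrix Kronecker
open scoped ComplexOrder MatrixOrder

set_option linter.unusedSectionVars false

namespace Vale.Agent.P372

namespace StabF

open BF (ctr pc IsExtS piT_tele piT_sq_sum ctr_sum ctr_sub pc_posSemidef trace_pc
  ctr_posSemidef re_tr_mul_nonneg eve_eq' contr_of_between)

variable {A B E : Type} [Fintype A] [DecidableEq A] [Fintype B] [DecidableEq B]
  [Fintype E] [DecidableEq E]

/-- Generalised inverses of positive operators. -/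
theorem exists_pinv {T : Matrix A A ℂ} (hT : T.PosSemidef) :
    ∃ W Q : Matrix A A ℂ, Wᴴ = W ∧ Qᴴ = Q ∧ T * W = Q ∧ W * T = Q ∧ W * T * W = W ∧
      T * Q = T ∧ Q * Q = Q := by
  classical
  obtain ⟨S, iS, P, lam, hP1, hP2, hP3, hP4, hP5⟩ := spec_one T hT.1
  -- orthogonality
  have hcom : ∀ s, Commute T (P s) := fun s => hP5 T (Commute.refl T) s
  obtain ⟨Q, W, hQ, hW⟩ : ∃ Q W : Matrix A A ℂ, Q = T * W ∧
      (Wᴴ = W ∧ W * T = T * W ∧ W * T * W = W ∧ T * (T * W) = T) := by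
    have h := hT.1
    obtain ⟨U, hU⟩ : ∃ U : Matrix A A ℂ, U = (h.eigenvectorUnitary : Matrix A A ℂ) := ⟨_, rfl⟩
    have hU1 : Uᴴ * U = 1 := by
      rw [hU]
      exact Unitary.coe_star_mul_self h.eigenvectorUnitary
    have hU2 : U * Uᴴ = 1 := mul_eq_one_comm.mp hU1
    obtain ⟨d, hd⟩ : ∃ d : A → ℝ, d = h.eigenvalues := ⟨_, rfl⟩
    have hsp : T = U * diagonal (fun i => (d i : ℂ)) * Uᴴ := by
      rw [hU, hd]
      exact h.spectral_theorem
    obtain ⟨Δ, hΔ⟩ : ∃ Δ : Matrix A A ℂ, Δ = diagonal (fun i => (d i : ℂ)) := ⟨_, rfl⟩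
    obtain ⟨Δ', hΔ'⟩ : ∃ Δ' : Matrix A A ℂ, Δ' = diagonal (fun i => (((d i)⁻¹ : ℝ) : ℂ)) :=
      ⟨_, rfl⟩
    rw [← hΔ] at hsp
    have k1 : Δ' * Δ = Δ * Δ' := by
      rw [hΔ, hΔ', diagonal_mul_diagonal, diagonal_mul_diagonal]
      congr 1
      funext i
      ring
    have k2 : Δ' * Δ * Δ' = Δ' := by
      rw [hΔ, hΔ', diagonal_mul_diagonal, diagonal_mul_diagonal]
      congr 1
      funext i
      by_cases hi : d i = 0
      · simp [hi]
      · push_cast
        have : (d i : ℂ) ≠ 0 := by exact_mod_cast hi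
        field_simp
    have k3 : Δ * (Δ * Δ') = Δ := by
      rw [hΔ, hΔ', diagonal_mul_diagonal, diagonal_mul_diagonal]
      congr 1
      funext i
      by_cases hi : d i = 0
      · simp [hi]
      · push_cast
        have : (d i : ℂ) ≠ 0 := by exact_mod_cast hi
        field_simp
    have k4 : Δ'ᴴ = Δ' := by
      rw [hΔ', diagonal_conjTranspose]
      congr 1
      funext i
      exact Complex.conj_ofReal _
    have hmul : ∀ M N : Matrix A A ℂ, (U * M * Uᴴ) * (U * N * Uᴴ) = U * (M * N) * Uᴴ := by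
      intro M N
      calc (U * M * Uᴴ) * (U * N * Uᴴ) = U * M * (Uᴴ * U) * N * Uᴴ := by
            simp only [Matrix.mul_assoc]
        _ = _ := by
            rw [hU1, Matrix.mul_one]
            simp only [Matrix.mul_assoc]
    refine ⟨_, U * Δ' * Uᴴ, rfl, ?_, ?_, ?_, ?_⟩
    · rw [conjTranspose_mul, conjTranspose_mul, conjTranspose_conjTranspose, k4,
        Matrix.mul_assoc]
    · rw [hsp, hmul, hmul, k1]
    · rw [hsp, hmul, hmul, k2]
    · rw [hsp, hmul, hmul, k3]
  obtain ⟨w1, w2, w3, w4⟩ := hW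
  refine ⟨W, Q, w1, ?_, hQ.symm, by rw [w2, hQ], w3, by rw [hQ, w4], ?_⟩
  · rw [hQ, conjTranspose_mul, w1, hT.1.eq, w2]
  · rw [hQ]
    calc T * W * (T * W) = T * (W * T * W) := by simp only [Matrix.mul_assoc]
      _ = _ := by rw [w3]

/-- Eve can realise every decomposition of an operator below the state. -/
theorem exists_eve {K : Type} [Fintype K] (Ψ : Matrix (A × B) E ℂ)
    {M : K → Matrix (A × B) (A × B) ℂ} (hM : ∀ k, (M k).PosSemidef)
    (hM1 : (Ψ * Ψᴴ - ∑ k, M k).PosSemidef) : ∃ Z : K → Matrix E E ℂ, (∀ k, (Z k).PosSemidef) ∧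
      (1 - ∑ k, Z k).PosSemidef ∧
      ∀ k X Y, (Z k * eve Ψ X Y).trace = ((X ⊗ₖ Y) * M k).trace := by
  classical
  obtain ⟨T, hT⟩ : ∃ T, T = Ψ * Ψᴴ := ⟨_, rfl⟩
  have hTp : T.PosSemidef := by
    rw [hT]
    exact posSemidef_self_mul_conjTranspose Ψ
  obtain ⟨W, Q, w1, w2, w3, w4, w5, w6, w7⟩ := exists_pinv hTp
  rw [← hT] at hM1
  have hQT : Q * T = T := by
    have := congrArg conjTranspose w6
    rwa [conjTranspose_mul, w2, hTp.1.eq] at this
  have hQM : ∀ k, Q * M k = M k := by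
    intro k
    have h1 : ((1 - Q) * M k * (1 - Q)ᴴ) = 0 := by
      have h2 : (1 - Q)ᴴ = 1 - Q := by rw [conjTranspose_sub, conjTranspose_one, w2]
      have h3 := (hM k).mul_mul_conjTranspose_same (1 - Q)
      have h4 : (T - M k).PosSemidef := by
        have h5 : T - M k = (T - ∑ l, M l) + ∑ l ∈ Finset.univ.erase k, M l := by
          rw [← Finset.add_sum_erase _ _ (Finset.mem_univ k)]
          abel
        rw [h5]
        exact hM1.add (posSemidef_sum _ fun l _ => hM l)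
      have h6 := h4.mul_mul_conjTranspose_same (1 - Q)
      have h7 : (1 - Q) * (T - M k) * (1 - Q)ᴴ = -((1 - Q) * M k * (1 - Q)ᴴ) := by
        have h8 : (1 - Q) * T = 0 := by rw [Matrix.sub_mul, Matrix.one_mul, hQT, sub_self]
        rw [Matrix.mul_sub, h8, zero_sub, Matrix.neg_mul]
      rw [h7] at h6
      have h9 := h6.trace_nonneg
      rw [trace_neg] at h9
      exact h3.trace_eq_zero_iff.mp (le_antisymm (neg_nonneg.mp h9) h3.trace_nonneg)
    have h2 := mul_eq_zero_of_conj (hM k) h1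
    rw [Matrix.sub_mul, Matrix.one_mul, sub_eq_zero] at h2
    exact h2.symm
  have hMQ : ∀ k, M k * Q = M k := by
    intro k
    have := congrArg conjTranspose (hQM k)
    rwa [conjTranspose_mul, w2, (hM k).1.eq] at this
  have hsum : ∑ k, Ψᴴ * W * M k * (W * Ψ) = Ψᴴ * W * Ψ -
      (W * Ψ)ᴴ * (T - ∑ k, M k) * (W * Ψ) := by
    rw [← Matrix.sum_mul, ← Matrix.mul_sum, conjTranspose_mul, w1, Matrix.mul_sub,
      Matrix.sub_mul]
    have h5 : Ψᴴ * W * T * (W * Ψ) = Ψᴴ * W * Ψ := by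
      calc Ψᴴ * W * T * (W * Ψ) = Ψᴴ * (W * T * W) * Ψ := by
            simp only [Matrix.mul_assoc]
        _ = _ := by rw [w5]
    rw [h5]
    abel
  refine ⟨fun k => (Ψᴴ * W * M k * (W * Ψ))ᵀ, fun k => ?_, ?_, ?_⟩
  · refine PosSemidef.transpose ?_
    have h4 : Ψᴴ * W * M k * (W * Ψ) = (W * Ψ)ᴴ * M k * (W * Ψ) := by
      rw [conjTranspose_mul, w1]
    rw [h4]
    exact (hM k).conjTranspose_mul_mul_same _
  · have h5 : (1 : Matrix E E ℂ) - ∑ k, (Ψᴴ * W * M k * (W * Ψ))ᵀ =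
        ((1 - Ψᴴ * W * Ψ)ᴴ * (1 - Ψᴴ * W * Ψ) +
          (W * Ψ)ᴴ * (T - ∑ k, M k) * (W * Ψ))ᵀ := by
      rw [← Matrix.transpose_sum, hsum]
      have h6 : (Ψᴴ * W * Ψ)ᴴ = Ψᴴ * W * Ψ := by
        rw [conjTranspose_mul, conjTranspose_mul, conjTranspose_conjTranspose, w1,
          Matrix.mul_assoc]
      have h7 : (Ψᴴ * W * Ψ) * (Ψᴴ * W * Ψ) = Ψᴴ * W * Ψ := by
        calc (Ψᴴ * W * Ψ) * (Ψᴴ * W * Ψ) = Ψᴴ * (W * (Ψ * Ψᴴ) * W) * Ψ := by
              simp only [Matrix.mul_assoc]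
          _ = _ := by rw [← hT, w5]
      have h8 : (1 - Ψᴴ * W * Ψ)ᴴ * (1 - Ψᴴ * W * Ψ) = 1 - Ψᴴ * W * Ψ := by
        rw [conjTranspose_sub, conjTranspose_one, h6, Matrix.sub_mul, Matrix.mul_sub,
          Matrix.mul_sub, h7, Matrix.one_mul, Matrix.mul_one, Matrix.one_mul]
        abel
      rw [h8, ← transpose_one, ← transpose_sub, transpose_one]
      congr 1
      abel
    rw [h5]
    exact ((posSemidef_conjTranspose_mul_self _).add
      (hM1.conjTranspose_mul_mul_same _)).transpose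
  · intro k X Y
    rw [eve_eq', ← Matrix.transpose_mul, trace_transpose]
    calc (Ψᴴ * (X ⊗ₖ Y) * Ψ * (Ψᴴ * W * M k * (W * Ψ))).trace
        = (Ψᴴ * ((X ⊗ₖ Y) * ((Ψ * Ψᴴ) * W) * M k * (W * Ψ))).trace := by
          simp only [Matrix.mul_assoc]
      _ = ((X ⊗ₖ Y) * (Q * M k) * (W * (Ψ * Ψᴴ))).trace := by
          rw [← hT, w3, trace_mul_comm]
          simp only [Matrix.mul_assoc]
          rw [hT]
      _ = ((X ⊗ₖ Y) * (M k * Q)).trace := by
          rw [← hT, w4, hQM, Matrix.mul_assoc]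
      _ = _ := by rw [hMQ]

/-- The main estimate for one transcript. -/
theorem multi_bound {κ : Type} [Fintype κ] [DecidableEq κ] {K : ℕ} (Ψ : Matrix (A × B) E ℂ)
    {f : κ → Matrix A A ℂ}
    {g : κ → Matrix B B ℂ} (hf : ∀ k, (f k).PosSemidef) (hg : ∀ k, (g k).PosSemidef)
    {P : Matrix B B ℂ} (hP : (P - ∑ k, g k).PosSemidef)
    {L : Matrix (A × (Fin (K + 1) → B)) (A × (Fin (K + 1) → B)) ℂ} (h : IsExtS (Ψ * Ψᴴ) P L)
    {σ : Matrix E E ℂ} (hσ : σ.PosSemidef) :
    ∑ k, (eve Ψ (f k) (g k)).trace.re ≤ (Fintype.card κ : ℝ)⁻¹ * σ.trace.re +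
      ∑ k, ∑ l, traceNorm (eve Ψ (f k) (g l) - if k = l then ((Fintype.card κ : ℂ)⁻¹) • σ
        else 0) + (((∑ k, f k) ⊗ₖ P) * (Ψ * Ψᴴ)).trace.re / (K + 1) := by
  obtain ⟨hL, hsw, hpc⟩ := id h
  obtain ⟨G, hG⟩ : ∃ G, G = ∑ k, g k := ⟨_, rfl⟩
  rw [← hG] at hP
  have hG0 : G.PosSemidef := hG ▸ posSemidef_sum _ fun k _ => hg k
  have hP0 : P.PosSemidef := by
    have h2 := hP.add hG0
    rwa [sub_add_cancel] at h2
  obtain ⟨U, hU⟩ : ∃ U, U = P - G := ⟨_, rfl⟩
  rw [← hU] at hP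
  have hGU : P - U = G := by rw [hU]; abel
  obtain ⟨M, hM⟩ : ∃ M : κ → Matrix (A × B) (A × B) ℂ,
      M = fun k => ∑ j : Fin K, pc L (piT (BF.sq U (g k) P j)) := ⟨_, rfl⟩
  have hsqp : ∀ {K' : ℕ} (u v w : Matrix B B ℂ), u.PosSemidef → v.PosSemidef → w.PosSemidef →
      ∀ j : Fin K', (piT (BF.sq u v w j)).PosSemidef := by
    intro K' u v w hu hv hw j
    refine piT_posSemidef fun i => ?_
    rw [BF.sq]
    split_ifs
    · exact hu
    · exact hv
    · exact hw
  have hMp : ∀ k, (M k).PosSemidef := by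
    intro k
    rw [hM]
    exact posSemidef_sum _ fun j _ => pc_posSemidef hL (hsqp _ _ _ hP (hg k) hP0 j)
  have htele : ∑ j : Fin K, pc L (piT (BF.sq U G P j)) =
      Ψ * Ψᴴ - pc L (piT fun _ => U) := by
    rw [← hpc]
    unfold pc
    rw [ctr_sum, ← ctr_sub, ← piT_tele, hGU]
  have hMs : (Ψ * Ψᴴ - ∑ k, M k).PosSemidef := by
    have e : ∑ k, M k = ∑ j : Fin K, pc L (piT (BF.sq U G P j)) := by
      rw [hM, Finset.sum_comm]
      refine Finset.sum_congr rfl fun j _ => ?_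
      rw [hG, piT_sq_sum]
      unfold pc
      rw [ctr_sum]
    rw [e, htele, sub_sub_cancel]
    exact pc_posSemidef hL (piT_posSemidef fun _ => hP)
  obtain ⟨Z, hZ, hZ1, hZ2⟩ := exists_eve Ψ hMp hMs
  have hle : ∀ k, (1 - Z k).PosSemidef := by
    intro k
    have : 1 - Z k = (1 - ∑ l, Z l) + ∑ l ∈ Finset.univ.erase k, Z l := by
      rw [← Finset.add_sum_erase _ _ (Finset.mem_univ k)]
      abel
    rw [this]
    exact hZ1.add (posSemidef_sum _ fun l _ => hZ l)
  -- the value of the simulation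
  have hval : ∀ k, ((f k ⊗ₖ G) * M k).trace = ((f k ⊗ₖ g k) * (Ψ * Ψᴴ)).trace -
      ((f k ⊗ₖ g k) * pc L (piT fun _ => U)).trace := by
    intro k
    have e1 : ∀ j : Fin K, ((f k ⊗ₖ G) * pc L (piT (BF.sq U (g k) P j))).trace =
        ((f k ⊗ₖ g k) * pc L (piT (BF.sq U G P j))).trace := by
      intro j
      rw [trace_pc, trace_pc, ← h.swap j.succ]
      congr 4
      funext i
      rw [Function.comp]
      refine Fin.cases ?_ (fun i => ?_) i
      · rw [Equiv.swap_apply_left, Fin.cons_succ, Fin.cons_zero, BF.sq, if_neg (lt_irrefl _),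
          if_pos rfl]
      · by_cases hij : i = j
        · rw [hij, Equiv.swap_apply_right, Fin.cons_zero, Fin.cons_succ, BF.sq,
            if_neg (lt_irrefl _), if_pos rfl]
        · have h3 : i.succ ≠ j.succ := fun h4 => hij (Fin.succ_injective _ h4)
          rw [Equiv.swap_apply_of_ne_of_ne (Fin.succ_ne_zero i) h3, Fin.cons_succ,
            Fin.cons_succ, BF.sq, BF.sq, if_neg hij, if_neg hij]
    rw [hM]
    beta_reduce
    rw [Matrix.mul_sum, trace_sum, Finset.sum_congr rfl fun j _ => e1 j, ← trace_sum,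
      ← Matrix.mul_sum, htele, Matrix.mul_sub, trace_sub]
  -- the remainder
  have hrem : ∀ k, ((f k ⊗ₖ g k) * pc L (piT fun _ => U)).trace.re ≤
      ((f k ⊗ₖ P) * (Ψ * Ψᴴ)).trace.re / (K + 1) := by
    intro k
    have e0 : ((f k ⊗ₖ g k) * pc L (piT fun _ => U)).trace.re ≤
        ((f k ⊗ₖ G) * pc L (piT fun _ => U)).trace.re := by
      have e1 : (G - g k).PosSemidef := by
        rw [hG, ← Finset.add_sum_erase _ _ (Finset.mem_univ k), add_sub_cancel_left]
        exact posSemidef_sum _ fun l _ => hg l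
      have e2 := re_tr_mul_nonneg ((hf k).kronecker e1)
        (pc_posSemidef hL (piT_posSemidef fun _ : Fin K => hP))
      have e3 : f k ⊗ₖ (G - g k) = f k ⊗ₖ G - f k ⊗ₖ g k := by
        ext p q
        simp only [kroneckerMap_apply, Matrix.sub_apply, mul_sub]
      rw [e3, Matrix.sub_mul, trace_sub, Complex.sub_re] at e2
      linarith
    have e1 : ∀ j : Fin (K + 1), ctr L (piT (BF.sq U G U j)) =
        ctr L (piT (Fin.cons G fun _ => U)) := by
      intro j
      rw [← h.swap j]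
      congr 2
      funext i
      rw [Function.comp]
      refine Fin.cases ?_ (fun i => ?_) i
      · rw [Equiv.swap_apply_left, Fin.cons_zero, BF.sq, if_neg (lt_irrefl _), if_pos rfl]
      · rw [Fin.cons_succ]
        by_cases hij : i.succ = j
        · rw [hij, Equiv.swap_apply_right, BF.sq]
          have h0 : (0 : Fin (K + 1)) ≠ j := by
            rw [← hij]
            exact (Fin.succ_ne_zero i).symm
          rw [if_neg h0]
          split_ifs <;> rfl
        · rw [Equiv.swap_apply_of_ne_of_ne (Fin.succ_ne_zero i) hij, BF.sq, if_neg hij]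
          split_ifs <;> rfl
    have e2 : ∀ j : Fin (K + 1), (f k * ctr L (piT (Fin.cons G fun _ => U))).trace.re ≤
        (f k * ctr L (piT (BF.sq U G P j))).trace.re := by
      intro j
      rw [← e1 j]
      have e3 : (piT (BF.sq U G P j) - piT (BF.sq U G U j)).PosSemidef := by
        refine Near.piT_sub_piT_posSemidef (fun i => ?_) fun i => ?_
        · rw [BF.sq]
          split_ifs
          · exact hP
          · exact hG0
          · exact hP
        · rw [BF.sq, BF.sq]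
          split_ifs
          · rw [sub_self]; exact PosSemidef.zero
          · rw [sub_self]; exact PosSemidef.zero
          · have : P - U = G := hGU
            rw [this]
            exact hG0
      have e4 := re_tr_mul_nonneg (hf k) (ctr_posSemidef hL e3)
      rw [ctr_sub, Matrix.mul_sub, trace_sub, Complex.sub_re] at e4
      linarith
    have e5 : ∑ j : Fin (K + 1), (f k * ctr L (piT (BF.sq U G P j))).trace.re ≤
        (f k * ctr L (piT fun _ => P)).trace.re := by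
      have e6 : ∑ j : Fin (K + 1), ctr L (piT (BF.sq U G P j)) =
          ctr L (piT fun _ => P) - ctr L (piT fun _ => U) := by
        rw [ctr_sum, ← ctr_sub, ← piT_tele, hGU]
      have e7 := re_tr_mul_nonneg (hf k)
        (ctr_posSemidef hL (piT_posSemidef fun _ : Fin (K + 1) => hP))
      rw [← Complex.re_sum, ← trace_sum, ← Matrix.mul_sum, e6, Matrix.mul_sub, trace_sub,
        Complex.sub_re]
      linarith
    have e8 : (f k * ctr L (piT fun _ : Fin (K + 1) => P)).trace = ((f k ⊗ₖ P) * (Ψ * Ψᴴ)).trace := by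
      rw [← hpc, trace_pc]
      congr 4
      funext i
      refine Fin.cases ?_ (fun i => ?_) i
      · rw [Fin.cons_zero]
      · rw [Fin.cons_succ]
    have e9 : ((f k ⊗ₖ G) * pc L (piT fun _ => U)).trace =
        (f k * ctr L (piT (Fin.cons G fun _ => U))).trace := trace_pc _ _ _ _
    have e10 := (Finset.sum_le_sum fun j (_ : j ∈ (Finset.univ : Finset (Fin (K + 1)))) =>
      e2 j).trans e5
    rw [Finset.sum_const, Finset.card_univ, Fintype.card_fin, nsmul_eq_mul, e8] at e10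
    have hK : (0 : ℝ) < K + 1 := by positivity
    rw [le_div_iff₀ hK]
    rw [e9] at e0
    push_cast at e10
    nlinarith
  -- conclusion
  have hb : ∀ k, ((f k ⊗ₖ G) * M k).trace.re ≤
      (Fintype.card κ : ℝ)⁻¹ * (Z k * σ).trace.re +
      ∑ l, traceNorm (eve Ψ (f k) (g l) - if k = l then ((Fintype.card κ : ℂ)⁻¹) • σ else 0) := by
    intro k
    have e0 : ((f k ⊗ₖ G) * M k).trace = ∑ l, (Z k * eve Ψ (f k) (g l)).trace := by
      rw [← hZ2, hG, eve_sum_right, Matrix.mul_sum, trace_sum]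
    have e1 : ∑ l, (Z k * eve Ψ (f k) (g l)).trace = ((Fintype.card κ : ℂ)⁻¹) * (Z k * σ).trace +
        ∑ l, (Z k * (eve Ψ (f k) (g l) - if k = l then ((Fintype.card κ : ℂ)⁻¹) • σ
          else 0)).trace := by
      simp only [Matrix.mul_sub, trace_sub, Finset.sum_sub_distrib]
      have e2 : ∑ l, (Z k * if k = l then ((Fintype.card κ : ℂ)⁻¹) • σ else 0).trace =
          ((Fintype.card κ : ℂ)⁻¹) * (Z k * σ).trace := by
        rw [Finset.sum_eq_single k]
        · rw [if_pos rfl, Matrix.mul_smul, trace_smul, smul_eq_mul]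
        · intro l _ hl
          rw [if_neg (Ne.symm hl), Matrix.mul_zero, trace_zero]
        · simp
      rw [e2]
      ring
    rw [e0, e1, Complex.add_re]
    refine add_le_add (le_of_eq ?_) ?_
    · have : ((Fintype.card κ : ℂ)⁻¹) = (((Fintype.card κ : ℝ)⁻¹ : ℝ) : ℂ) := by push_cast; rfl
      rw [this, Complex.re_ofReal_mul]
    · rw [Complex.re_sum]
      refine Finset.sum_le_sum fun l _ => ?_
      exact (Complex.re_le_norm _).trans
        (norm_trace_mul_le (contr_of_between (hZ k) (hle k)) _)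
  have e2 : ∀ k, (eve Ψ (f k) (g k)).trace = ((f k ⊗ₖ g k) * (Ψ * Ψᴴ)).trace := by
    intro k
    rw [eve_eq', trace_transpose, trace_mul_comm, ← Matrix.mul_assoc, trace_mul_comm]
  have hone : ∀ k, (eve Ψ (f k) (g k)).trace.re ≤
      ((Fintype.card κ : ℝ)⁻¹ * (Z k * σ).trace.re +
      ∑ l, traceNorm (eve Ψ (f k) (g l) - if k = l then ((Fintype.card κ : ℂ)⁻¹) • σ else 0)) +
      ((f k ⊗ₖ P) * (Ψ * Ψᴴ)).trace.re / (K + 1) := by
    intro k
    have h3 := hb k
    have h4 := hrem k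
    have h5 := congrArg Complex.re (hval k)
    rw [Complex.sub_re] at h5
    rw [e2]
    linarith
  refine (Finset.sum_le_sum fun k _ => hone k).trans ?_
  rw [Finset.sum_add_distrib, Finset.sum_add_distrib, ← Finset.mul_sum]
  have e5 : ∑ k, ((f k ⊗ₖ P) * (Ψ * Ψᴴ)).trace.re / (K + 1) =
      (((∑ k, f k) ⊗ₖ P) * (Ψ * Ψᴴ)).trace.re / (K + 1) := by
    rw [← Finset.sum_div]
    congr 1
    have e6 : (∑ k, f k) ⊗ₖ P = ∑ k, f k ⊗ₖ P := by
      ext p q
      simp only [kroneckerMap_apply, Matrix.sum_apply, Finset.sum_mul]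
    rw [e6, Matrix.sum_mul, trace_sum, Complex.re_sum]
  rw [e5]
  refine add_le_add (add_le_add (mul_le_mul_of_nonneg_left ?_ (by positivity)) le_rfl) le_rfl
  have e3 : ∑ k, (Z k * σ).trace.re = ((∑ k, Z k) * σ).trace.re := by
    rw [Matrix.sum_mul, trace_sum, Complex.re_sum]
  have e4 : 0 ≤ ((1 - ∑ k, Z k) * σ).trace.re := re_tr_mul_nonneg hZ1 hσ
  rw [Matrix.sub_mul, Matrix.one_mul, trace_sub, Complex.sub_re] at e4
  rw [e3]
  linarith

end StabF

end Vale.Agent.P372
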