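import Vale.Agent.P372.StabF.KExt

open Matrix Kronecker
open scoped ComplexOrder MatrixOrder

set_option linter.unusedSectionVars false

namespace Vale.Agent.P372

namespace StabF

variable {A B X Y D : Type} [Fintype A] [DecidableEq A] [Fintype B] [DecidableEq B]
  [Fintype X] [DecidableEq X] [Fintype Y] [DecidableEq Y] [Fintype D] [DecidableEq D]
  {ι : Type} [Fintype ι] [DecidableEq ι]

theorem blk_ft (V : Matrix D Y ℂ) (M : Matrix (X × Y) (X × Y) ℂ) (d d' : D) :
    blk (ft V M) d d' = ∑ y, ∑ y', (V d y * star (V d' y')) • blk M y y' := by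
  ext x x'
  simp only [blk, ft, Matrix.sum_apply, Matrix.smul_apply, smul_eq_mul]
  refine Finset.sum_congr rfl fun y _ => Finset.sum_congr rfl fun y' _ => ?_
  ring

theorem blk_flag (S : Matrix (A × B) (A × B) ℂ) (α : ℝ) (τ : ι → Bool) (y y' : ι → B) :
    blk (flag S α τ) y y' = tens fun i => blk (if τ i then S else (α : ℂ) • 1) (y i) (y' i) := rfl

theorem blk_smul_one (α : ℂ) (b b' : B) :
    blk (α • (1 : Matrix (A × B) (A × B) ℂ)) b b' = (if b = b' then α else 0) • 1 := by
  ext x x'
  simp only [blk, Matrix.smul_apply, Matrix.one_apply, Prod.mk.injEq, smul_eq_mul]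
  by_cases h1 : x = x' <;> by_cases h2 : b = b' <;> simp [h1, h2]

theorem flag_commute (S : Matrix (A × B) (A × B) ℂ) (α : ℝ) (V : Matrix D (ι → B) ℂ)
    {τ τ' : ι → Bool} (h : ∀ i, ¬ (τ i = true ∧ τ' i = true)) (d d' e e' : D) :
    Commute (blk (ft V (flag S α τ)) d d') (blk (ft V (flag S α τ')) e e') := by
  rw [blk_ft, blk_ft]
  refine Commute.sum_left _ _ _ fun y _ => Commute.sum_left _ _ _ fun y' _ =>
    Commute.sum_right _ _ _ fun w _ => Commute.sum_right _ _ _ fun w' _ => ?_
  refine (Commute.smul_right ?_ _).smul_left _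
  rw [blk_flag, blk_flag]
  show _ * _ = _ * _
  rw [tens_mul, tens_mul]
  congr 1
  funext i
  by_cases h1 : τ i = true
  · have h2 : τ' i = false := by
      by_contra h3
      exact h i ⟨h1, by simpa using h3⟩
    rw [h2]
    simp only [Bool.false_eq_true, if_false]
    rw [blk_smul_one, Matrix.smul_mul, Matrix.mul_smul, Matrix.one_mul, Matrix.mul_one]
  · rw [if_neg h1, blk_smul_one, Matrix.smul_mul, Matrix.mul_smul, Matrix.one_mul, Matrix.mul_one]

/-- Flagging one more copy divides the operator by at least `K`. -/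
theorem flag_updateK {K : ℕ} {S : Matrix (A × B) (A × B) ℂ} {α : ℝ} (hS : S.PosSemidef)
    (hα : 0 ≤ α) (hS' : ((α : ℂ) • 1 - (K : ℂ) • S).PosSemidef) (τ : ι → Bool) (i : ι) :
    (flag S α (Function.update τ i false) -
      (K : ℂ) • flag S α (Function.update τ i true)).PosSemidef := by
  have h := site_posSemidef (M := fun j => if j = i then (α : ℂ) • 1 - (K : ℂ) • S else
      if τ j then S else (α : ℂ) • 1)
    (fun j => by
      show (if j = i then (α : ℂ) • 1 - (K : ℂ) • S else
        if τ j then S else (α : ℂ) • 1).PosSemidef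
      split_ifs
      · exact hS'
      · exact hS
      · exact smul_one_posSemidef hα)
    (fun (p : (ι → A) × (ι → B)) i => (p.1 i, p.2 i))
  have e : (flag S α (Function.update τ i false) -
      (K : ℂ) • flag S α (Function.update τ i true)) =
      Matrix.of fun p q : (ι → A) × (ι → B) => ∏ j, (if j = i then (α : ℂ) • 1 - (K : ℂ) • S else
        if τ j then S else (α : ℂ) • 1) (p.1 j, p.2 j) (q.1 j, q.2 j) := by
    ext p q
    rw [Matrix.sub_apply, Matrix.smul_apply, Matrix.of_apply]
    simp only [flag]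
    rw [← Finset.mul_prod_erase Finset.univ _ (Finset.mem_univ i),
      ← Finset.mul_prod_erase Finset.univ _ (Finset.mem_univ i),
      ← Finset.mul_prod_erase Finset.univ _ (Finset.mem_univ i)]
    have e1 : ∀ b, ∏ j ∈ Finset.univ.erase i, (if Function.update τ i b j = true then S else
        (α : ℂ) • 1) (p.1 j, p.2 j) (q.1 j, q.2 j) = ∏ j ∈ Finset.univ.erase i,
        (if j = i then (α : ℂ) • 1 - (K : ℂ) • S else if τ j = true then S else (α : ℂ) • 1)
          (p.1 j, p.2 j) (q.1 j, q.2 j) := by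
      intro b
      refine Finset.prod_congr rfl fun j hj => ?_
      have hj' : j ≠ i := Finset.ne_of_mem_erase hj
      rw [Function.update_of_ne hj', if_neg hj']
    rw [e1, e1]
    simp only [Function.update_self, if_true, Bool.false_eq_true, if_false, Matrix.sub_apply,
      Matrix.smul_apply, smul_eq_mul]
    ring
  rw [e]
  exact h

/-- The coefficients on one joint eigenspace. -/
theorem exists_coeffK {K : ℕ} (hK : 0 < K) (lam : (ι → Bool) → ℝ) (h0 : ∀ τ, 0 ≤ lam τ)
    (hd : DecK K lam) :
    ∃ c : (ι → Option (Fin (K + 1))) → ℝ, (∀ g, 0 ≤ c g) ∧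
      ∀ a τ, lam τ ≠ 0 → ∑ g, (if fl g a = τ then
        c g * ∏ b, (if b = a then 1 else lam (fl g b)) else 0) = 1 := by
  obtain ⟨W, hW1, hW2⟩ := coupleK (κ := Fin (K + 1)) (K := K) (by exact_mod_cast hK)
    (by simp) lam h0 hd
  have hz : ∀ g b, lam (fl g b) = 0 → W g = 0 := by
    intro g b h
    have h1 := hW2 b (fl g b)
    rw [h] at h1
    have h2 := (Finset.sum_eq_zero_iff_of_nonneg fun g' _ => by
      show 0 ≤ (if fl g' b = fl g b then W g' else 0)
      split_ifs
      · exact hW1 _
      · exact le_rfl).mp h1 g (Finset.mem_univ _)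
    simpa using h2
  refine ⟨fun g => W g / ∏ b, lam (fl g b), fun g => div_nonneg (hW1 g)
    (Finset.prod_nonneg fun b _ => h0 _), fun a τ hτ => ?_⟩
  have h1 : ∀ g, (if fl g a = τ then (W g / ∏ b, lam (fl g b)) *
      ∏ b, (if b = a then 1 else lam (fl g b)) else 0) =
      (if fl g a = τ then W g else 0) / lam τ := by
    intro g
    by_cases hg : fl g a = τ
    · rw [if_pos hg, if_pos hg]
      by_cases hall : ∀ b, lam (fl g b) ≠ 0
      · have h2 : ∏ b, lam (fl g b) = lam τ * ∏ b, (if b = a then 1 else lam (fl g b)) := by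
          rw [← Finset.mul_prod_erase Finset.univ _ (Finset.mem_univ a), hg,
            ← Finset.mul_prod_erase Finset.univ (fun b => if b = a then 1 else lam (fl g b))
              (Finset.mem_univ a)]
          rw [if_pos rfl, one_mul]
          congr 1
          refine Finset.prod_congr rfl fun b hb => ?_
          rw [if_neg (Finset.ne_of_mem_erase hb)]
        have h3 : ∏ b, (if b = a then 1 else lam (fl g b)) ≠ 0 := by
          refine Finset.prod_ne_zero_iff.mpr fun b _ => ?_
          split_ifs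
          · exact one_ne_zero
          · exact hall b
        rw [h2]
        field_simp
      · push Not at hall
        obtain ⟨b, hb⟩ := hall
        rw [hz g b hb]
        simp
    · rw [if_neg hg, if_neg hg, zero_div]
  simp only [h1]
  rw [← Finset.sum_div, hW2, div_self hτ]

theorem blk_add' (M N : Matrix (X × D) (X × D) ℂ) (d d' : D) :
    blk (M + N) d d' = blk M d d' + blk N d d' := rfl

theorem blk_sum {σ : Type} (s : Finset σ) (M : σ → Matrix (X × D) (X × D) ℂ) (d d' : D) :
    blk (∑ i ∈ s, M i) d d' = ∑ i ∈ s, blk (M i) d d' := by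
  ext x x'
  simp only [blk, Matrix.sum_apply]

theorem blk_smul (c : ℂ) (M : Matrix (X × D) (X × D) ℂ) (d d' : D) :
    blk (c • M) d d' = c • blk M d d' := rfl

theorem mgk_sum {σ : Type} (s : Finset σ) {k : ℕ} (a : Fin k)
    (M : σ → Matrix (X × (Fin k → D)) (X × (Fin k → D)) ℂ) :
    mgk a (∑ i ∈ s, M i) = ∑ i ∈ s, mgk a (M i) := by
  ext p q
  simp only [mgk, Matrix.sum_apply]
  rw [Finset.sum_comm]
  refine Finset.sum_congr rfl fun e _ => ?_
  split_ifs
  · rfl
  · simp

theorem mgk_smul {k : ℕ} (a : Fin k) (c : ℂ)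
    (M : Matrix (X × (Fin k → D)) (X × (Fin k → D)) ℂ) : mgk a (c • M) = c • mgk a M := by
  ext p q
  simp only [mgk, Matrix.smul_apply, smul_eq_mul, Finset.mul_sum]
  refine Finset.sum_congr rfl fun e _ => ?_
  split_ifs
  · rfl
  · simp

theorem blk_mgk_mul {k : ℕ} (a : Fin k) (Q : Matrix X X ℂ)
    (M : Matrix (X × (Fin k → D)) (X × (Fin k → D)) ℂ) (d d' : D) :
    blk (mgk a ((Q ⊗ₖ (1 : Matrix (Fin k → D) (Fin k → D) ℂ)) * M)) d d' =
      Q * blk (mgk a M) d d' := by
  rw [blk_mgk, blk_mgk, Matrix.mul_sum]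
  refine Finset.sum_congr rfl fun e _ => ?_
  rw [blk_mul_left]
  split_ifs
  · rfl
  · simp

/-- The extension of the filtered copies to `K + 1` copies of Bob's system. -/
theorem exists_extK {K : ℕ} (hK : 0 < K) {S : Matrix (A × B) (A × B) ℂ} {α : ℝ}
    (hS : S.PosSemidef) (hα : 0 ≤ α) (hS' : ((α : ℂ) • 1 - (K : ℂ) • S).PosSemidef)
    (V : Matrix D (ι → B) ℂ)
    (hC : ∀ σ τ d d', Commute (ptr (ft V (flag S α σ))) (blk (ft V (flag S α τ)) d d')) :
    ∃ Ω : Matrix ((ι → A) × (Fin (K + 1) → D)) ((ι → A) × (Fin (K + 1) → D)) ℂ,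
      Ω.PosSemidef ∧ ∀ a, mgk a Ω = ft V (∑ τ, flag S α τ) := by
  classical
  obtain ⟨F, hF⟩ : ∃ F : (ι → Bool) → Matrix ((ι → A) × D) ((ι → A) × D) ℂ,
      F = fun τ => ft V (flag S α τ) := ⟨_, rfl⟩
  have hFp : ∀ τ, (F τ).PosSemidef := by
    intro τ
    rw [hF]
    exact ft_posSemidef V (flag_posSemidef hS hα τ)
  have hC' : ∀ σ τ d d', Commute (ptr (F σ)) (blk (F τ) d d') := by
    rw [hF]
    exact hC
  have hνp : ∀ σ, (ptr (F σ)).PosSemidef := fun σ => ptr_posSemidef (hFp σ)
  have hνc : ∀ σ τ, Commute (ptr (F σ)) (ptr (F τ)) := by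
    intro σ τ
    exact Commute.sum_right _ _ _ fun d _ => hC' σ τ d d
  obtain ⟨I, iI, Q, lam, hQ1, hQ2, hQ3, hQ4, hQ5⟩ := joint_spec (fun σ => ptr (F σ))
    (fun σ => (hνp σ).1) hνc
  have hQF : ∀ s τ d d', Commute (Q s) (blk (F τ) d d') := fun s τ d d' =>
    (hQ5 (blk (F τ) d d') (fun σ => (hC' σ τ d d').symm) s).symm
  have hQν : ∀ s σ, Q s * ptr (F σ) = (lam σ s : ℂ) • Q s := by
    intro s σ
    rw [← hQ4 σ s]
    exact (hQ5 (ptr (F σ)) (fun σ' => hνc σ σ') s).symm.eq
  -- the coefficients
  have hcoef : ∀ s, ∃ c : (ι → Option (Fin (K + 1))) → ℝ, (∀ g, 0 ≤ c g) ∧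
      ∀ a τ d d', ((∑ g, (if fl g a = τ then
        c g * ∏ b, (if b = a then 1 else lam (fl g b) s) else 0) : ℝ) : ℂ) •
          (Q s * blk (F τ) d d') = Q s * blk (F τ) d d' := by
    intro s
    by_cases h0 : Q s = 0
    · exact ⟨fun _ => 0, fun _ => le_rfl, fun a τ d d' => by rw [h0]; simp⟩
    · have hl : ∀ τ, 0 ≤ lam τ s := fun τ => lam_nonneg (hQ1 s) (hQ2 s) h0 (hνp τ) (hQ4 τ s)
      have hd : DecK K fun τ => lam τ s := by
        intro τ i
        have h1 : (ptr (F (Function.update τ i false)) -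
            (K : ℂ) • ptr (F (Function.update τ i true))).PosSemidef := by
          have h2 := ptr_posSemidef (ft_posSemidef V (flag_updateK hS hα hS' τ i))
          have h3 : ptr (ft V (flag S α (Function.update τ i false) -
              (K : ℂ) • flag S α (Function.update τ i true))) =
              ptr (F (Function.update τ i false)) -
                (K : ℂ) • ptr (F (Function.update τ i true)) := by
            rw [hF, ft_sub, ptr_sub]
            congr 1
            ext x x'
            simp only [ptr, blk, ft, Matrix.sum_apply, Matrix.smul_apply, smul_eq_mul,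
              Finset.mul_sum]
            refine Finset.sum_congr rfl fun d _ => Finset.sum_congr rfl fun y _ =>
              Finset.sum_congr rfl fun y' _ => ?_
            ring
          rwa [h3] at h2
        have h2 := lam_nonneg (hQ1 s) (hQ2 s) h0 h1
          (l := lam (Function.update τ i false) s - K * lam (Function.update τ i true) s) (by
            rw [Matrix.sub_mul, Matrix.smul_mul, hQ4, hQ4, smul_smul, ← sub_smul]
            push_cast
            rfl)
        exact sub_nonneg.mp h2
      obtain ⟨c, hc1, hc2⟩ := exists_coeffK hK (fun τ => lam τ s) hl hd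
      refine ⟨c, hc1, fun a τ d d' => ?_⟩
      by_cases h : lam τ s = 0
      · have h1 : Q s * blk (F τ) d d' = 0 := by
          refine blk_eq_zero (hQ1 s) (hQ2 s) (hFp τ) (fun d d' => hQF s τ d d') ?_ d d'
          rw [hQν, h]
          simp
        rw [h1, smul_zero]
      · rw [hc2 a τ h]
        simp
  choose c hc1 hc2 using hcoef
  refine ⟨∑ s, ∑ g, (c s g : ℂ) • ((Q s ⊗ₖ
    (1 : Matrix (Fin (K + 1) → D) (Fin (K + 1) → D) ℂ)) * opk fun b => F (fl g b)), ?_, ?_⟩
  · refine posSemidef_sum _ fun s _ => posSemidef_sum _ fun g _ => ?_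
    refine PosSemidef.smul ?_ (Complex.zero_le_real.mpr (hc1 s g))
    refine proj_posSemidef (hQ1 s) (hQ2 s) ?_ ?_
    · refine opk_posSemidef _ (fun a => hFp _) fun a b hab d d' e e' => ?_
      rw [hF]
      refine flag_commute S α V ?_ d d' e e'
      rintro i ⟨h1, h2⟩
      simp only [fl, decide_eq_true_eq] at h1 h2
      rw [h1] at h2
      exact hab (Option.some_injective _ h2)
    · intro d d'
      rw [blk_opk]
      refine Commute.list_prod_right _ _ fun Z hZ => ?_
      obtain ⟨b, rfl⟩ := List.mem_ofFn.mp hZ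
      exact hQF s _ _ _
  · intro a
    refine blk_ext fun d d' => ?_
    rw [mgk_sum, blk_sum]
    have e1 : ∀ s, blk (mgk a (∑ g, (c s g : ℂ) • ((Q s ⊗ₖ
        (1 : Matrix (Fin (K + 1) → D) (Fin (K + 1) → D) ℂ)) * opk fun b => F (fl g b)))) d d' =
        ∑ τ, Q s * blk (F τ) d d' := by
      intro s
      rw [mgk_sum, blk_sum]
      have e2 : ∀ g, blk (mgk a ((c s g : ℂ) • ((Q s ⊗ₖ
          (1 : Matrix (Fin (K + 1) → D) (Fin (K + 1) → D) ℂ)) *
            opk fun b => F (fl g b)))) d d' =
          ∑ τ, (((if fl g a = τ then c s g * ∏ b, (if b = a then 1 else lam (fl g b) s)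
            else 0) : ℝ) : ℂ) • (Q s * blk (F τ) d d') := by
        intro g
        rw [mgk_smul, blk_smul, blk_mgk_mul, mgk_opk,
          mul_ofFn_one (hQF s (fl g a) d d') a (fun b => ptr (F (fl g b)))
            (fun b => (lam (fl g b) s : ℂ)) (fun b => hQν s _), smul_smul,
          Finset.sum_eq_single (fl g a)]
        · rw [if_pos rfl]
          congr 1
          push_cast
          congr 1
          refine Finset.prod_congr rfl fun b _ => ?_
          split_ifs <;> simp
        · intro τ _ hτ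
          rw [if_neg (Ne.symm hτ)]
          simp
        · simp
      simp only [e2]
      rw [Finset.sum_comm]
      refine Finset.sum_congr rfl fun τ _ => ?_
      rw [← Finset.sum_smul, ← Complex.ofReal_sum]
      exact hc2 s a τ d d'
    simp only [e1]
    rw [Finset.sum_comm, ft_sum, blk_sum]
    refine Finset.sum_congr rfl fun τ _ => ?_
    rw [← Matrix.sum_mul, hQ3, Matrix.one_mul, hF]

end StabF

end Vale.Agent.P372
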