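import Vale.Agent.P372.StabF.KFinal

open Matrix Kronecker
open scoped ComplexOrder MatrixOrder

set_option linter.unusedSectionVars false

namespace Vale.Agent.P372

namespace StabF

open BF (cop loccm_locc loccm_sum locc_le_one)

variable {X : Type} [Fintype X] [DecidableEq X]

theorem codeLOCC_locc {P : Matrix X X ℂ → Prop} {N : ℕ} {K : Type} [Fintype K] {C n : ℕ}
    {W : Matrix (Fin n → X) (Fin n → X) ℂ} {A T : Type} {f : T → K → Matrix A A ℂ}
    {g : T → K → Matrix (Fin n → X) (Fin n → X) ℂ} (h : CodeLOCC P N K C n W A T f g) :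
    LOCC K A (Fin n → X) T f g := by
  induction h with
  | free W hW f g h => exact loccm_locc h
  | alice W A' M R V hV T f g h ih => exact LOCC.alice A' M R V hV T f g ih
  | bob W M V hV T f g h ih =>
    have h1 := LOCC.bob (K := K) (Fin n → X) M Unit (fun m _ => V m) (by
      rw [← hV]
      refine Finset.sum_congr rfl fun m _ => ?_
      rw [Fintype.sum_unique]) T f g ih
    have e : (fun (t : Σ m, T m) (k : K) => ∑ _r : Unit, (V t.1)ᴴ * g t.1 t.2 k * V t.1) =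
        fun t k => (V t.1)ᴴ * g t.1 t.2 k * V t.1 := by
      funext t k
      rw [Fintype.sum_unique]
    rwa [e] at h1

theorem kron_sum_left {ι Y Z : Type} (s : Finset ι) (M : ι → Matrix Y Y ℂ) (N : Matrix Z Z ℂ) :
    (∑ i ∈ s, M i) ⊗ₖ N = ∑ i ∈ s, M i ⊗ₖ N := by
  ext p q
  simp only [kroneckerMap_apply, Matrix.sum_apply, Finset.sum_mul]

theorem kron_sum_right {ι Y Z : Type} (s : Finset ι) (M : Matrix Y Y ℂ) (N : ι → Matrix Z Z ℂ) :
    M ⊗ₖ (∑ i ∈ s, N i) = ∑ i ∈ s, M ⊗ₖ N i := by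
  ext p q
  simp only [kroneckerMap_apply, Matrix.sum_apply, Finset.mul_sum]

theorem kron_sub_left' {Y Z : Type} (M M' : Matrix Y Y ℂ) (N : Matrix Z Z ℂ) :
    (M - M') ⊗ₖ N = M ⊗ₖ N - M' ⊗ₖ N := by
  ext p q
  simp only [kroneckerMap_apply, Matrix.sub_apply, sub_mul]

/-- The transcripts of such a protocol are dominated by codes, with total weight at most `C`. -/
theorem codeLOCC_dom {P : Matrix X X ℂ → Prop} {N : ℕ} {K : Type} [Fintype K] {C n : ℕ}
    {W : Matrix (Fin n → X) (Fin n → X) ℂ} {A T : Type} {f : T → K → Matrix A A ℂ}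
    {g : T → K → Matrix (Fin n → X) (Fin n → X) ℂ} (h : CodeLOCC P N K C n W A T f g) :
    ∀ (_ : Fintype A) (_ : DecidableEq A) (_ : Fintype T),
      ∃ R : T → Matrix (Fin n → X) (Fin n → X) ℂ, (∀ t, CodeBlocks P N 0 (R t)) ∧
        (∀ t, (R t - Wᴴ * (∑ k, g t k) * W).PosSemidef) ∧
        (((((C : ℝ) : ℂ) • (1 : Matrix A A ℂ)) ⊗ₖ (Wᴴ * W)) -
          ∑ t, (∑ k, f t k) ⊗ₖ R t).PosSemidef := by
  induction h with
  | free W hW f g h =>
    intro i1 i2 i3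
    refine ⟨fun _ => Wᴴ * W, fun _ => hW, fun t => ?_, ?_⟩
    · have h1 := locc_le_one (loccm_locc h) inferInstance inferInstance t
      have h2 := h1.conjTranspose_mul_mul_same W
      rwa [Matrix.mul_sub, Matrix.sub_mul, Matrix.mul_one] at h2
    · have h1 := loccm_sum h i1 i2 i3
      rw [← kron_sum_left, ← kron_sub_left']
      exact h1.kronecker (posSemidef_conjTranspose_mul_self W)
  | alice W A' M R V hV T f g h ih =>
    intro i1 i2 i3
    classical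
    have : ∀ m, Fintype (T m) := fun m =>
      Fintype.ofInjective (fun t : T m => (⟨m, t⟩ : Σ m, T m)) sigma_mk_injective
    choose Q hQ1 hQ2 hQ3 using fun m => ih m inferInstance inferInstance inferInstance
    refine ⟨fun t => Q t.1 t.2, fun t => hQ1 _ _, fun t => hQ2 _ _, ?_⟩
    have e1 : ∑ t : (Σ m, T m), (∑ k, ∑ r, (V t.1 r)ᴴ * f t.1 t.2 k * V t.1 r) ⊗ₖ Q t.1 t.2 =
        ∑ m, ∑ t : T m, (∑ k, ∑ r, (V m r)ᴴ * f m t k * V m r) ⊗ₖ Q m t := by
      rw [← Fintype.sum_sigma (fun t : (Σ m, T m) =>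
        (∑ k, ∑ r, (V t.1 r)ᴴ * f t.1 t.2 k * V t.1 r) ⊗ₖ Q t.1 t.2)]
      refine Finset.sum_congr ?_ fun _ _ => rfl
      ext t
      simp
    have e2 : ∀ m (t : T m), (∑ k, ∑ r, (V m r)ᴴ * f m t k * V m r) ⊗ₖ Q m t =
        ∑ r, (V m r ⊗ₖ (1 : Matrix (Fin n → X) (Fin n → X) ℂ))ᴴ *
          ((∑ k, f m t k) ⊗ₖ Q m t) * (V m r ⊗ₖ (1 : Matrix (Fin n → X) (Fin n → X) ℂ)) := by
      intro m t
      rw [Finset.sum_comm, kron_sum_left]
      refine Finset.sum_congr rfl fun r _ => ?_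
      rw [conjTranspose_kronecker, conjTranspose_one, ← mul_kronecker_mul, ← mul_kronecker_mul,
        Matrix.one_mul, Matrix.mul_one, Matrix.mul_sum, Matrix.sum_mul]
    have e3 : (((C : ℝ) : ℂ) • (1 : Matrix _ _ ℂ)) ⊗ₖ (Wᴴ * W) =
        ∑ m, ∑ r, (V m r ⊗ₖ (1 : Matrix (Fin n → X) (Fin n → X) ℂ))ᴴ *
          ((((C : ℝ) : ℂ) • (1 : Matrix A' A' ℂ)) ⊗ₖ (Wᴴ * W)) *
            (V m r ⊗ₖ (1 : Matrix (Fin n → X) (Fin n → X) ℂ)) := by
      have e4 : ∀ m r, (V m r ⊗ₖ (1 : Matrix (Fin n → X) (Fin n → X) ℂ))ᴴ *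
          ((((C : ℝ) : ℂ) • (1 : Matrix A' A' ℂ)) ⊗ₖ (Wᴴ * W)) *
            (V m r ⊗ₖ (1 : Matrix (Fin n → X) (Fin n → X) ℂ)) =
          (((C : ℝ) : ℂ) • ((V m r)ᴴ * V m r)) ⊗ₖ (Wᴴ * W) := by
        intro m r
        rw [conjTranspose_kronecker, conjTranspose_one, ← mul_kronecker_mul,
          ← mul_kronecker_mul, Matrix.one_mul, Matrix.mul_one, Matrix.mul_smul, Matrix.mul_one,
          Matrix.smul_mul]
      simp only [e4]
      rw [← Finset.sum_congr rfl fun m _ => kron_sum_left Finset.univ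
        (fun r => ((C : ℝ) : ℂ) • ((V m r)ᴴ * V m r)) (Wᴴ * W), ← kron_sum_left]
      congr 1
      simp only [← Finset.smul_sum]
      congr 1
      exact (hV.trans (one_congr' _ _)).symm
    have e5 : ((((C : ℝ) : ℂ) • (1 : Matrix _ _ ℂ)) ⊗ₖ (Wᴴ * W)) -
        ∑ t : (Σ m, T m), (∑ k, ∑ r, (V t.1 r)ᴴ * f t.1 t.2 k * V t.1 r) ⊗ₖ Q t.1 t.2 =
        ∑ m, ∑ r, (V m r ⊗ₖ (1 : Matrix (Fin n → X) (Fin n → X) ℂ))ᴴ *
          (((((C : ℝ) : ℂ) • (1 : Matrix A' A' ℂ)) ⊗ₖ (Wᴴ * W)) -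
            ∑ t, (∑ k, f m t k) ⊗ₖ Q m t) *
            (V m r ⊗ₖ (1 : Matrix (Fin n → X) (Fin n → X) ℂ)) := by
      rw [e1, e3]
      simp only [e2, Matrix.mul_sub, Matrix.sub_mul, Finset.sum_sub_distrib]
      congr 1
      refine Finset.sum_congr rfl fun m _ => ?_
      rw [Finset.sum_comm]
      refine Finset.sum_congr rfl fun r _ => ?_
      rw [Matrix.mul_sum, Matrix.sum_mul]
    rw [e5]
    exact posSemidef_sum _ fun m _ => posSemidef_sum _ fun r _ =>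
      (hQ3 m).conjTranspose_mul_mul_same _
  | @bob A₀ W M _ V hV T f g h ih =>
    intro i1 i2 i3
    classical
    have : ∀ m, Fintype (T m) := fun m =>
      Fintype.ofInjective (fun t : T m => (⟨m, t⟩ : Σ m, T m)) sigma_mk_injective
    choose Q hQ1 hQ2 hQ3 using fun m => ih m inferInstance inferInstance inferInstance
    refine ⟨fun t => Q t.1 t.2, fun t => hQ1 _ _, fun t => ?_, ?_⟩
    · have h1 := hQ2 t.1 t.2
      have e : Wᴴ * (∑ k, (V t.1)ᴴ * g t.1 t.2 k * V t.1) * W =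
          (V t.1 * W)ᴴ * (∑ k, g t.1 t.2 k) * (V t.1 * W) := by
        rw [← Matrix.sum_mul, ← Matrix.mul_sum, conjTranspose_mul]
        simp only [Matrix.mul_assoc]
      rw [e]
      exact h1
    · have e1 : ∑ t : (Σ m, T m), (∑ k, f t.1 t.2 k) ⊗ₖ Q t.1 t.2 =
          ∑ m, ∑ t : T m, (∑ k, f m t k) ⊗ₖ Q m t := by
        rw [← Fintype.sum_sigma (fun t : (Σ m, T m) => (∑ k, f t.1 t.2 k) ⊗ₖ Q t.1 t.2)]
        refine Finset.sum_congr ?_ fun _ _ => rfl
        ext t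
        simp
      have e2 : (((C : ℝ) : ℂ) • (1 : Matrix A₀ A₀ ℂ)) ⊗ₖ (Wᴴ * W) =
          ∑ m, (((C : ℝ) : ℂ) • (1 : Matrix A₀ A₀ ℂ)) ⊗ₖ ((V m * W)ᴴ * (V m * W)) := by
        rw [← kron_sum_right]
        congr 1
        have e3 : ∀ m, (V m * W)ᴴ * (V m * W) = Wᴴ * ((V m)ᴴ * V m) * W := by
          intro m
          rw [conjTranspose_mul]
          simp only [Matrix.mul_assoc]
        simp only [e3]
        rw [← Matrix.sum_mul, ← Matrix.mul_sum, hV, Matrix.mul_one]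
      rw [e1, e2, ← Finset.sum_sub_distrib]
      exact posSemidef_sum _ fun m _ => hQ3 m

end StabF

end Vale.Agent.P372
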