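import Vale.Agent.P372.StabF.KMsg
import Vale.Agent.P372.H795.Blocks3

open Matrix Kronecker
open scoped ComplexOrder MatrixOrder

set_option linter.unusedSectionVars false

namespace Vale.Agent.P372

namespace StabF

open BF (cop cop_low re_tr_mul_nonneg)

variable {A B E : Type} [Fintype A] [DecidableEq A] [Fintype B] [DecidableEq B]
  [Fintype E] [DecidableEq E]

/-- No key if Bob, after his stabilizer measurements, announces at most `log₂ C` bits. -/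
theorem codeLOCC_key {ρ : Matrix (A × B) (A × B) ℂ} {lo hi : ℝ} {N K C : ℕ} (hK : 0 < K)
    {b : Bool} {PB : Matrix B B ℂ → Prop} (hPB : H795.Comp b ρ PB)
    (h12 : K * hi ≤ (K + 1) * lo) (htr : ρ.trace = 1) (hlo : 0 < lo)
    (h1 : (ρ - (lo : ℂ) • 1).PosSemidef) (h2 : ((hi : ℂ) • 1 - ρ).PosSemidef)
    (hN : K * hi ^ N ≤ (K + 1) * lo ^ N) (Ψ : Matrix (A × B) E ℂ) (hΨ : Ψ * Ψᴴ = ρ) (n ℓ : ℕ)
    (T : Type) [Fintype T] (f : T → (Fin ℓ → Bool) → Matrix (Fin n → A) (Fin n → A) ℂ)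
    (g : T → (Fin ℓ → Bool) → Matrix (Fin n → B) (Fin n → B) ℂ) (ε : ℝ)
    (hL : CodeLOCC PB N (Fin ℓ → Bool) C n 1 (Fin n → A) T f g)
    (herr : KeyError f g (copies n Ψ) ε) : 1 - ε ≤ (2 ^ ℓ)⁻¹ + ε + C / (K + 1) := by
  have hρn : (tpow n ρ).PosSemidef := by
    have h3 := cop_low (Fin n) hlo.le h1
    have h4 := h3.add ((PosSemidef.one (n := ((Fin n) → A) × ((Fin n) → B)) (R := ℂ)).smul
      (Complex.zero_le_real.mpr (pow_nonneg hlo.le (Fintype.card (Fin n)))))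
    rwa [sub_add_cancel] at h4
  obtain ⟨R, hR1, hR2, hR3⟩ := codeLOCC_dom hL inferInstance inferInstance inferInstance
  obtain ⟨γ, hγ⟩ : ∃ γ : T → ℝ, γ = fun t => (((∑ k, f t k) ⊗ₖ R t) * tpow n ρ).trace.re :=
    ⟨_, rfl⟩
  have h3 := multi_codes (N := N) (b := b) (PA := fun _ => False) hK (fun u hu => hu.elim) hPB
    h12 htr hlo h1 h2 hN Ψ hΨ n ℓ T f g γ ε (codeLOCC_locc hL)
    (fun t => Or.inr ⟨R t, hR1 t, by
      have h4 := hR2 t
      rwa [conjTranspose_one, Matrix.one_mul, Matrix.mul_one] at h4, by rw [hγ]⟩) herr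
  have h4 : ∑ t, γ t ≤ C := by
    have h5 := re_tr_mul_nonneg hR3 hρn
    have h6 : ((((C : ℝ) : ℂ) • (1 : Matrix (Fin n → A) (Fin n → A) ℂ)) ⊗ₖ
        ((1 : Matrix (Fin n → B) (Fin n → B) ℂ)ᴴ * 1)) = ((C : ℝ) : ℂ) • 1 := by
      rw [conjTranspose_one, Matrix.mul_one, smul_kronecker, one_kronecker_one]
    rw [h6, Matrix.sub_mul, Matrix.smul_mul, Matrix.one_mul, trace_sub, trace_smul,
      Lim.tpow_trace n htr, smul_eq_mul, mul_one, Matrix.sum_mul, trace_sum, Complex.sub_re,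
      Complex.ofReal_re, Complex.re_sum] at h5
    rw [hγ]
    linarith
  have hK' : (0 : ℝ) < K + 1 := by positivity
  have h5 : (∑ t, γ t) / (K + 1) ≤ C / (K + 1) := div_le_div_of_nonneg_right h4 hK'.le
  linarith

/-- The numbers for the PPT states. -/
theorem ppt_num {d k : ℕ} {s : ℝ} (hk : 6 ≤ k) (hd : k < d)
    (h : (k : ℝ) * d - 1 < s * (k + 1) * (d - 1)) (hs1 : s < 1) :
    ∃ lo hi : ℝ, 0 < lo ∧ (pptState d k s).trace = 1 ∧
      (pptState d k s - (lo : ℂ) • 1).PosSemidef ∧ ((hi : ℂ) • 1 - pptState d k s).PosSemidef ∧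
      hi ≤ 2 * lo ∧ hi / lo = (k + 2 * s) / (k - 2 * s) ∧ 0 < (k : ℝ) - 2 * s ∧
      ∀ (x y : ℝ) (N : ℕ), x * (k + 2 * s) ^ N ≤ y * (k - 2 * s) ^ N → x * hi ^ N ≤ y * lo ^ N := by
  have hk0 : 0 < k := by omega
  have hs : 0 < s := Lim.ppt_pos hk0 hd h
  have hq := Lim.ppt_norm_pos hk0 hd hs1
  obtain ⟨b1, b2, b3⟩ := Lim.ppt_bounds hk0 hd hs1 hs.le
  have hkR : (0 : ℝ) < k := by exact_mod_cast hk0
  have hk6 : (6 : ℝ) ≤ k := by exact_mod_cast hk
  have hlt : 0 < 1 - 2 * s / k := by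
    rw [sub_pos, div_lt_one hkR]
    linarith
  have hlo : 0 < (1 - 2 * s / k) * ((d : ℝ) ^ 2 * k ^ 2 - s * (d ^ 2 - d))⁻¹ :=
    mul_pos hlt (inv_pos.mpr hq)
  have e1 : (1 + 2 * s / k) = (k + 2 * s) / (k : ℝ) := by
    rw [add_div, div_self hkR.ne']
  have e2 : (1 - 2 * s / k) = (k - 2 * s) / (k : ℝ) := by
    rw [sub_div, div_self hkR.ne']
  refine ⟨_, _, hlo, b1, b2, b3, ?_, ?_, by linarith, ?_⟩
  · rw [← mul_assoc]
    refine mul_le_mul_of_nonneg_right ?_ (inv_pos.mpr hq).le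
    rw [e1, e2, ← mul_div_assoc]
    refine div_le_div_of_nonneg_right ?_ hkR.le
    linarith
  · rw [mul_div_mul_right _ _ (inv_pos.mpr hq).ne']
    have h5 : (k : ℝ) - 2 * s ≠ 0 := by
      have : (0 : ℝ) < k - 2 * s := by linarith
      exact this.ne'
    have h6 : (1 : ℝ) - 2 * s / k ≠ 0 := hlt.ne'
    rw [div_eq_div_iff h6 h5]
    field_simp
  · intro x y N hxy
    rw [mul_pow, mul_pow, ← mul_assoc, ← mul_assoc]
    refine mul_le_mul_of_nonneg_right ?_ (pow_nonneg (inv_pos.mpr hq).le N)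
    rw [e1, e2, div_pow, div_pow, ← mul_div_assoc, ← mul_div_assoc]
    exact div_le_div_of_nonneg_right hxy (pow_nonneg hkR.le N)

theorem ppt_comp (d k : ℕ) (s : ℝ) :
    H795.Comp true ((pptState d k s).submatrix Prod.swap Prod.swap) LocalPair ∧
      H795.Comp true (pptState d k s) LocalPair := by
  obtain ⟨x, hx⟩ := H795.ppt_swapComb d k s
  constructor
  · rw [hx, H795.swapComb_swap]
    exact H795.swapComb_comp x
  · rw [hx]
    exact H795.swapComb_comp x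

/-- All bounds. -/
theorem codeBounds {ρ : Matrix (A × B) (A × B) ℂ} {lo hi : ℝ} {b b' : Bool}
    {PA : Matrix A A ℂ → Prop} {PB : Matrix B B ℂ → Prop}
    (hPA : H795.Comp b (ρ.submatrix (Prod.swap : B × A → A × B) Prod.swap) PA)
    (hPB : H795.Comp b' ρ PB) (htr : ρ.trace = 1) (hlo : 0 < lo)
    (h1 : (ρ - (lo : ℂ) • 1).PosSemidef) (h2 : ((hi : ℂ) • 1 - ρ).PosSemidef)
    (h12 : hi ≤ 2 * lo) : CodeBounds PA PB ρ lo hi := by
  intro E _ _ Ψ hΨ n ℓ T _ f g ε herr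
  exact ⟨fun hL => ⟨fun N M S α κ c hN hα hκ hc hprod =>
      H795.all_filters htr hlo h1 h2 h12 hN hc hκ (hα.imp id fun h5 => by
        rw [show 8 * (hi / lo - 1) = 8 * (hi - lo) / lo by field_simp, div_le_iff₀ hlo]
        exact h5) hPA hPB Ψ hΨ n ℓ T f g ε hL hprod herr,
    fun N K γ hK h12' hN hprod =>
      multi_codes hK hPA hPB h12' htr hlo h1 h2 hN Ψ hΨ n ℓ T f g γ ε hL hprod herr⟩,
    fun N K C hK h12' hN hL =>
      codeLOCC_key hK hPB h12' htr hlo h1 h2 hN Ψ hΨ n ℓ T f g ε hL herr⟩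

theorem ppt_bounds {d k : ℕ} {s : ℝ} (hk : 6 ≤ k) (hd : k < d)
    (h : (k : ℝ) * d - 1 < s * (k + 1) * (d - 1)) (hs1 : s < 1) :
    CodeBounds LocalPair LocalPair (pptState d k s) (k - 2 * s) (k + 2 * s) := by
  obtain ⟨lo, hi, hlo, htr, h1, h2, h12, hratio, hlo', hnum⟩ := ppt_num hk hd h hs1
  obtain ⟨hA, hB⟩ := ppt_comp d k s
  intro E _ _ Ψ hΨ n ℓ T _ f g ε herr
  obtain ⟨b1, b2⟩ := codeBounds hA hB htr hlo h1 h2 h12 E Ψ hΨ n ℓ T f g ε herr
  have hone : ∀ K : ℕ, K * (k + 2 * s) ≤ (K + 1) * (k - 2 * s) → K * hi ≤ (K + 1) * lo := by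
    intro K hK
    have := hnum K (K + 1) 1 (by simpa using hK)
    simpa using this
  refine ⟨fun hL => ⟨fun N M S α κ c hN hα hκ hc hprod => ?_, fun N K γ hK h3 hN hprod => ?_⟩,
    fun N K C hK h3 hN hL => ?_⟩
  · rw [← hratio]
    have h4 := hnum 1 2 N (by simpa using hN)
    refine (b1 hL).1 N M S α κ c (by simpa using h4) (hα.imp id fun h5 => ?_) hκ hc hprod
    have h6 : hi = (k + 2 * s) / (k - 2 * s) * lo := by
      rw [← hratio, div_mul_cancel₀ _ hlo.ne']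
    have h7 : 8 * (((k : ℝ) + 2 * s) / (k - 2 * s) - 1) ≤ α := by
      rw [show 8 * (((k : ℝ) + 2 * s) / (k - 2 * s) - 1) =
        8 * (k + 2 * s - (k - 2 * s)) / (k - 2 * s) by field_simp, div_le_iff₀ hlo']
      exact h5
    have h8 := mul_le_mul_of_nonneg_right h7 hlo.le
    rw [h6]
    linarith
  · exact (b1 hL).2 N K γ hK (hone K h3) (hnum K (K + 1) N hN) hprod
  · exact b2 N K C hK (hone K h3) (hnum K (K + 1) N hN) hL

/-- PPT entangled states without key if Bob measures stabilizers and then announces at most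
`log₂ C` bits. -/
theorem code_bits (C N : ℕ) (hC : 0 < C) : ∃ (d k : ℕ) (s : ℝ),
    (pptState d k s).PosDef ∧ (pTrans (pptState d k s)).PosDef ∧ (pptState d k s).trace = 1 ∧
    ¬ IsSep (pptState d k s) ∧
    ∀ (E : Type) [Fintype E] [DecidableEq E]
      (Ψ : Matrix ((Fin d × Fin k) × (Fin d × Fin k)) E ℂ), Ψ * Ψᴴ = pptState d k s →
      ∀ (n ℓ : ℕ), 0 < ℓ → ∀ (T : Type) [Fintype T]
        (f g : T → (Fin ℓ → Bool) → Matrix (Fin n → Fin d × Fin k) (Fin n → Fin d × Fin k) ℂ)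
        (ε : ℝ), ε < 1 / 8 →
        CodeLOCC LocalPair N (Fin ℓ → Bool) C n 1 (Fin n → Fin d × Fin k) T f g →
        ¬ KeyError f g (copies n Ψ) ε := by
  obtain ⟨k, hk⟩ : ∃ k : ℕ, k = 16 * C * (N + 1) := ⟨_, rfl⟩
  obtain ⟨s, hs⟩ : ∃ s : ℝ, s = 1 - 1 / (2 * (k * (k + 1))) := ⟨_, rfl⟩
  have hkC : 16 * C ≤ k := by
    rw [hk]
    exact Nat.le_mul_of_pos_right _ (Nat.succ_pos N)
  have hk0 : (0 : ℝ) < k := by
    have : 0 < k := by omega
    exact_mod_cast this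
  have hkk : (0 : ℝ) < k * (k + 1) := by positivity
  have hs1 : s < 1 := by
    rw [hs]
    have : 0 < 1 / (2 * ((k : ℝ) * (k + 1))) := by positivity
    linarith
  have hcond : (k : ℝ) * ((k + 1 : ℕ) : ℝ) - 1 < s * (k + 1) * (((k + 1 : ℕ) : ℝ) - 1) := by
    have e : s * (k + 1) * (((k + 1 : ℕ) : ℝ) - 1) = k * (k + 1) - 1 / 2 := by
      rw [hs]
      push_cast
      field_simp
      ring
    rw [e]
    push_cast
    linarith
  have hs0 : 0 < s := Lim.ppt_pos (by omega) (by omega : k < k + 1) hcond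
  obtain ⟨h1, h2, h3, h4, -⟩ := Lim.ppt_key (k + 1) k s (by omega) (by omega) hcond hs1
  refine ⟨k + 1, k, s, h1, h2, h3, h4, ?_⟩
  intro E _ _ Ψ hΨ n ℓ hℓ T _ f g ε hε hL herr
  have hpow : ∀ M : ℕ, 0 < M → M ≤ N + 1 → ((4 * C - 1 : ℕ) : ℝ) * (k + 2 * s) ^ M ≤
      (((4 * C - 1 : ℕ) : ℝ) + 1) * (k - 2 * s) ^ M := by
    intro M hM hMN
    have h5 := Lim.ppt_pow (k := k) (D := 4 * C - 1) (N := M) hM hs0 hs1 (by
      have e : 4 * C - 1 + 1 = 4 * C := by omega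
      rw [e, hk]
      calc 4 * M * (4 * C) = 16 * C * M := by ring
        _ ≤ 16 * C * (N + 1) := Nat.mul_le_mul_left _ hMN)
    have e1 : ((k : ℝ) + 2 * s) = k * (1 + 2 * s / k) := by field_simp
    have e2 : ((k : ℝ) - 2 * s) = k * (1 - 2 * s / k) := by field_simp
    rw [e1, e2, mul_pow, mul_pow, ← mul_assoc, ← mul_assoc, mul_comm _ ((k : ℝ) ^ M),
      mul_comm _ ((k : ℝ) ^ M), mul_assoc, mul_assoc]
    exact mul_le_mul_of_nonneg_left h5 (pow_pos hk0 M).le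
  have h12 : ((4 * C - 1 : ℕ) : ℝ) * (k + 2 * s) ≤ (((4 * C - 1 : ℕ) : ℝ) + 1) * (k - 2 * s) := by
    have := hpow 1 one_pos (by omega)
    simpa using this
  have hNN : ((4 * C - 1 : ℕ) : ℝ) * (k + 2 * s) ^ N ≤
      (((4 * C - 1 : ℕ) : ℝ) + 1) * (k - 2 * s) ^ N := by
    rcases Nat.eq_zero_or_pos N with h0 | h0
    · rw [h0, pow_zero, pow_zero]
      linarith
    · exact hpow N h0 (Nat.le_succ N)
  have h5 := (ppt_bounds (by omega) (by omega) hcond hs1 E Ψ hΨ n ℓ T f g ε herr).2 N (4 * C - 1)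
    C (by omega) h12 hNN hL
  have h6 : ((4 * C - 1 : ℕ) : ℝ) + 1 = 4 * C := by
    have : 4 * C - 1 + 1 = 4 * C := by omega
    exact_mod_cast this
  rw [h6] at h5
  have hC0 : (0 : ℝ) < C := by exact_mod_cast hC
  have h7 : (C : ℝ) / (4 * C) = 1 / 4 := by
    field_simp
  have h8 : ((2 : ℝ) ^ ℓ)⁻¹ ≤ 1 / 2 := by
    have h9 : (2 : ℝ) ^ 1 ≤ 2 ^ ℓ := pow_le_pow_right₀ (by norm_num) hℓ
    rw [pow_one] at h9
    rw [inv_eq_one_div]
    exact one_div_le_one_div_of_le (by norm_num) h9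
  rw [h7] at h5
  linarith

end StabF

end Vale.Agent.P372
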