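import Vale.Agent.P372.StabF.KMain
import Vale.Agent.P372.BF.Multi

open Matrix Kronecker
open scoped ComplexOrder MatrixOrder

set_option linter.unusedSectionVars false

namespace Vale.Agent.P372

namespace StabF

variable {X D : Type} [Fintype X] [DecidableEq X] [Fintype D] [DecidableEq D]

/-- The marginal of a permuted operator. -/
theorem mgk_perm {K : ℕ} (Ω : Matrix (X × (Fin (K + 1) → D)) (X × (Fin (K + 1) → D)) ℂ)
    (σ : Equiv.Perm (Fin (K + 1))) (x x' : X) (b b' : D) :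
    ∑ y : Fin K → D, Ω (x, (Fin.cons b y : Fin (K + 1) → D) ∘ σ)
      (x', (Fin.cons b' y : Fin (K + 1) → D) ∘ σ) = mgk (σ.symm 0) Ω (x, b) (x', b') := by
  rw [mgk]
  have e : ∀ f : Fin (K + 1) → D, (if (f ∘ σ) (σ.symm 0) = b then Ω (x, f ∘ σ)
      (x', Function.update (f ∘ σ) (σ.symm 0) b') else 0) =
      if f 0 = b then Ω (x, f ∘ σ) (x', Function.update f 0 b' ∘ σ) else 0 := by
    intro f
    have h1 : (f ∘ σ) (σ.symm 0) = f 0 := by simp
    have h2 : Function.update (f ∘ σ) (σ.symm 0) b' = Function.update f 0 b' ∘ σ := by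
      funext j
      by_cases hj : j = σ.symm 0
      · subst hj
        simp
      · have h3 : σ j ≠ 0 := fun h => hj (by rw [← h, Equiv.symm_apply_apply])
        rw [Function.update_of_ne hj, Function.comp_apply, Function.comp_apply,
          Function.update_of_ne h3]
    rw [h1, h2]
  have e2 : ∑ e : Fin (K + 1) → D, (if e (σ.symm 0) = b then Ω (x, e)
      (x', Function.update e (σ.symm 0) b') else 0) =
      ∑ f : Fin (K + 1) → D, (if (f ∘ σ) (σ.symm 0) = b then Ω (x, f ∘ σ)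
      (x', Function.update (f ∘ σ) (σ.symm 0) b') else 0) := by
    rw [← Equiv.sum_comp (σ.symm.arrowCongr (Equiv.refl D))]
    rfl
  show _ = ∑ e : Fin (K + 1) → D, (if e (σ.symm 0) = b then Ω (x, e)
      (x', Function.update e (σ.symm 0) b') else 0)
  rw [e2, Finset.sum_congr rfl fun f _ => e f,
    ← Equiv.sum_comp (Fin.consEquiv fun _ => D), Fintype.sum_prod_type,
    Finset.sum_eq_single b]
  · refine Finset.sum_congr rfl fun y _ => ?_
    simp only [Fin.consEquiv, Equiv.coe_fn_mk, Fin.cons_zero, if_true, Fin.update_cons_zero]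
  · intro c _ hc
    refine Finset.sum_eq_zero fun y _ => ?_
    simp only [Fin.consEquiv, Equiv.coe_fn_mk, Fin.cons_zero, if_neg hc]
  · simp

/-- An operator with equal marginals can be made symmetric. -/
theorem extS_of_mgk {K : ℕ} {R : Matrix (X × D) (X × D) ℂ}
    {Ω : Matrix (X × (Fin (K + 1) → D)) (X × (Fin (K + 1) → D)) ℂ} (hΩ : Ω.PosSemidef)
    (h : ∀ a, mgk a Ω = R) :
    ∃ L : Matrix (X × (Fin (K + 1) → D)) (X × (Fin (K + 1) → D)) ℂ, BF.IsExtS R 1 L := by
  classical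
  obtain ⟨N, hN⟩ : ∃ N : ℝ, N = (Fintype.card (Equiv.Perm (Fin (K + 1))) : ℝ) := ⟨_, rfl⟩
  have hN0 : 0 < N := by
    rw [hN]
    exact_mod_cast Fintype.card_pos
  have hNc : (N : ℂ) ≠ 0 := by exact_mod_cast hN0.ne'
  refine ⟨((N⁻¹ : ℝ) : ℂ) • ∑ σ : Equiv.Perm (Fin (K + 1)),
    Ω.submatrix (fun p => (p.1, p.2 ∘ σ)) (fun p => (p.1, p.2 ∘ σ)), ?_, ?_, ?_⟩
  · exact (posSemidef_sum _ fun σ _ => hΩ.submatrix _).smul
      (by exact_mod_cast (inv_pos.mpr hN0).le)
  · intro j a b a' b'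
    rw [Matrix.smul_apply, Matrix.smul_apply, Matrix.sum_apply, Matrix.sum_apply,
      ← Equiv.sum_comp (Equiv.mulLeft (Equiv.swap (0 : Fin (K + 1)) j))
        (fun σ : Equiv.Perm (Fin (K + 1)) => Ω.submatrix (fun p => (p.1, p.2 ∘ σ))
          (fun p => (p.1, p.2 ∘ σ)) (a, b) (a', b'))]
    rfl
  · ext p q
    obtain ⟨x, b⟩ := p
    obtain ⟨x', b'⟩ := q
    rw [BF.pc, BF.ctr, piT_one]
    have e1 : ∀ y : Fin K → D, ∑ y' : Fin K → D,
        ((((N⁻¹ : ℝ) : ℂ) • ∑ σ : Equiv.Perm (Fin (K + 1)),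
          Ω.submatrix (fun p => (p.1, p.2 ∘ σ)) (fun p => (p.1, p.2 ∘ σ))).submatrix
          (fun p : (X × D) × (Fin K → D) => (p.1.1, Fin.cons p.1.2 p.2))
          (fun p : (X × D) × (Fin K → D) => (p.1.1, Fin.cons p.1.2 p.2)) ((x, b), y)
            ((x', b'), y')) * (1 : Matrix (Fin K → D) (Fin K → D) ℂ) y' y =
        ((N⁻¹ : ℝ) : ℂ) * ∑ σ : Equiv.Perm (Fin (K + 1)),
          Ω (x, (Fin.cons b y : Fin (K + 1) → D) ∘ σ)
            (x', (Fin.cons b' y : Fin (K + 1) → D) ∘ σ) := by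
      intro y
      rw [Finset.sum_eq_single y]
      · rw [Matrix.one_apply_eq, mul_one, Matrix.submatrix_apply, Matrix.smul_apply,
          Matrix.sum_apply, smul_eq_mul]
        rfl
      · intro y' _ hy
        rw [Matrix.one_apply_ne hy, mul_zero]
      · simp
    simp only [e1]
    rw [← Finset.mul_sum, Finset.sum_comm]
    simp only [mgk_perm, h]
    rw [Finset.sum_const, Finset.card_univ, nsmul_eq_mul, hN, ← mul_assoc]
    push_cast
    rw [inv_mul_cancel₀ (by rw [hN] at hNc; exact_mod_cast hNc), one_mul]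

end StabF

end Vale.Agent.P372
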